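import Mathlib

/-!
Basic definitions for the planar halving-line problem (P065).
-/

namespace Vale.Agent.P065

/-- `det3 p q r` is twice the signed area of the triangle `p q r`: it is positive iff `r` lies
strictly to the left of the directed line from `p` to `q`, negative iff strictly to the right,
and zero iff the three points are collinear. -/
def det3 (p q r : ℝ × ℝ) : ℝ :=
  (q.1 - p.1) * (r.2 - p.2) - (q.2 - p.2) * (r.1 - p.1)

/-- No three distinct points of `P` are collinear. -/
def NoThreeCollinear (P : Finset (ℝ × ℝ)) : Prop :=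
  ∀ p ∈ P, ∀ q ∈ P, ∀ r ∈ P, p ≠ q → p ≠ r → q ≠ r →
    ¬ Collinear ℝ ({p, q, r} : Set (ℝ × ℝ))

/-- `p, q` are distinct points of `P` and the line through them has exactly `(|P| - 2) / 2`
points of `P` in each of its two open half-planes. -/
def IsHalvingPair (P : Finset (ℝ × ℝ)) (p q : ℝ × ℝ) : Prop :=
  p ∈ P ∧ q ∈ P ∧ p ≠ q ∧
    2 * (P.filter (fun r => 0 < det3 p q r)).card + 2 = P.card ∧
    2 * (P.filter (fun r => det3 p q r < 0)).card + 2 = P.card

open Classical in
/-- The set of unordered pairs of points of `P` spanning a halving line; its cardinality is the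
number `h(P)` of halving lines of `P`. -/
noncomputable def halvingPairs (P : Finset (ℝ × ℝ)) : Finset (Finset (ℝ × ℝ)) :=
  (P.powersetCard 2).filter (fun s => ∃ p q, s = {p, q} ∧ IsHalvingPair P p q)

end Vale.Agent.P065
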