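import Mathlib

/-!
Abstract discrete intermediate value lemma for the counting walk around a vertex.
Items `z ∈ Z` carry a real slope `sl z` (injective on `Z`) and a type (`r z` : right, otherwise left).
-/

namespace Vale.Agent.P065

open Finset

variable {α : Type*} [DecidableEq α]

/-- value of the walk just after the threshold `t` -/
noncomputable def walkAfter (Z : Finset α) (sl : α → ℝ) (r : α → Prop) [DecidablePred r] (t : ℝ) : ℕ :=
  (Z.filter (fun z => r z ∧ t < sl z)).card + (Z.filter (fun z => ¬ r z ∧ sl z ≤ t)).card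

/-- value of the walk just before the threshold `t` -/
noncomputable def walkBefore (Z : Finset α) (sl : α → ℝ) (r : α → Prop) [DecidablePred r] (t : ℝ) : ℕ :=
  (Z.filter (fun z => r z ∧ t ≤ sl z)).card + (Z.filter (fun z => ¬ r z ∧ sl z < t)).card

/-- value of the walk at the threshold `t`, not counting items of slope exactly `t` -/
noncomputable def walkAt (Z : Finset α) (sl : α → ℝ) (r : α → Prop) [DecidablePred r] (t : ℝ) : ℕ :=
  (Z.filter (fun z => r z ∧ t < sl z)).card + (Z.filter (fun z => ¬ r z ∧ sl z < t)).card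

variable (Z : Finset α) (sl : α → ℝ) (r : α → Prop) [DecidablePred r]

lemma walk_gap {t₁ t₂ : ℝ} (h12 : t₁ < t₂) (hgap : ∀ z ∈ Z, ¬ (t₁ < sl z ∧ sl z < t₂)) :
    walkAfter Z sl r t₁ = walkBefore Z sl r t₂ := by
  unfold walkAfter walkBefore
  congr 1
  · congr 1
    apply Finset.filter_congr
    intro z hz
    have := hgap z hz
    constructor
    · rintro ⟨h1, h2⟩
      refine ⟨h1, ?_⟩
      by_contra hc
      exact this ⟨h2, not_le.mp hc⟩
    · rintro ⟨h1, h2⟩
      exact ⟨h1, lt_of_lt_of_le h12 h2⟩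
  · congr 1
    apply Finset.filter_congr
    intro z hz
    have := hgap z hz
    constructor
    · rintro ⟨h1, h2⟩
      exact ⟨h1, lt_of_le_of_lt h2 h12⟩
    · rintro ⟨h1, h2⟩
      refine ⟨h1, ?_⟩
      by_contra hc
      exact this ⟨not_le.mp hc, h2⟩

variable {Z sl r}

lemma walk_right (hinj : Set.InjOn sl Z) {z₀ : α} (hz₀ : z₀ ∈ Z) (hr : r z₀) :
    walkBefore Z sl r (sl z₀) = walkAt Z sl r (sl z₀) + 1 ∧
    walkAfter Z sl r (sl z₀) = walkAt Z sl r (sl z₀) := by
  unfold walkBefore walkAfter walkAt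
  have h1 : Z.filter (fun z => r z ∧ sl z₀ ≤ sl z) = insert z₀ (Z.filter (fun z => r z ∧ sl z₀ < sl z)) := by
    ext z
    simp only [mem_filter, mem_insert]
    constructor
    · rintro ⟨hz, hrz, hle⟩
      rcases eq_or_lt_of_le hle with h | h
      · left; exact (hinj hz₀ hz h).symm
      · right; exact ⟨hz, hrz, h⟩
    · rintro (h | ⟨hz, hrz, h⟩)
      · subst h; exact ⟨hz₀, hr, le_refl _⟩
      · exact ⟨hz, hrz, le_of_lt h⟩
  have h2 : z₀ ∉ Z.filter (fun z => r z ∧ sl z₀ < sl z) := by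
    simp
  have h3 : Z.filter (fun z => ¬ r z ∧ sl z ≤ sl z₀) = Z.filter (fun z => ¬ r z ∧ sl z < sl z₀) := by
    apply Finset.filter_congr
    intro z hz
    constructor
    · rintro ⟨hrz, hle⟩
      refine ⟨hrz, lt_of_le_of_ne hle ?_⟩
      intro h
      have := hinj hz hz₀ h
      subst this
      exact hrz hr
    · rintro ⟨hrz, h⟩
      exact ⟨hrz, le_of_lt h⟩
  constructor
  · rw [h1, Finset.card_insert_of_notMem h2]; omega
  · rw [h3]

lemma walk_left (hinj : Set.InjOn sl Z) {z₀ : α} (hz₀ : z₀ ∈ Z) (hr : ¬ r z₀) :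
    walkBefore Z sl r (sl z₀) = walkAt Z sl r (sl z₀) ∧
    walkAfter Z sl r (sl z₀) = walkAt Z sl r (sl z₀) + 1 := by
  unfold walkBefore walkAfter walkAt
  have h1 : Z.filter (fun z => ¬ r z ∧ sl z ≤ sl z₀) = insert z₀ (Z.filter (fun z => ¬ r z ∧ sl z < sl z₀)) := by
    ext z
    simp only [mem_filter, mem_insert]
    constructor
    · rintro ⟨hz, hrz, hle⟩
      rcases eq_or_lt_of_le hle with h | h
      · left; exact hinj hz hz₀ h
      · right; exact ⟨hz, hrz, h⟩
    · rintro (h | ⟨hz, hrz, h⟩)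
      · subst h; exact ⟨hz₀, hr, le_refl _⟩
      · exact ⟨hz, hrz, le_of_lt h⟩
  have h2 : z₀ ∉ Z.filter (fun z => ¬ r z ∧ sl z < sl z₀) := by
    simp
  have h3 : Z.filter (fun z => r z ∧ sl z₀ ≤ sl z) = Z.filter (fun z => r z ∧ sl z₀ < sl z) := by
    apply Finset.filter_congr
    intro z hz
    constructor
    · rintro ⟨hrz, hle⟩
      refine ⟨hrz, lt_of_le_of_ne hle ?_⟩
      intro h
      have := hinj hz₀ hz h
      subst this
      exact hr hrz
    · rintro ⟨hrz, h⟩
      exact ⟨hrz, le_of_lt h⟩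
  constructor
  · rw [h3]
  · rw [h1, Finset.card_insert_of_notMem h2]; omega

/-- Discrete intermediate value lemma: if the walk is `≤ k` just after `t₁` and `≥ k+1` just before
`t₂`, then some left item in between is an up-crossing from `k` to `k+1`. -/
lemma walk_ivt (hinj : Set.InjOn sl Z) (k : ℕ) :
    ∀ (N : ℕ) (t₁ t₂ : ℝ), (Z.filter (fun z => t₁ < sl z ∧ sl z < t₂)).card = N → t₁ < t₂ →
      walkAfter Z sl r t₁ ≤ k → k + 1 ≤ walkBefore Z sl r t₂ →
      ∃ u ∈ Z, ¬ r u ∧ t₁ < sl u ∧ sl u < t₂ ∧ walkAt Z sl r (sl u) = k := by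
  intro N
  induction N using Nat.strong_induction_on with
  | _ N ih =>
    intro t₁ t₂ hN h12 hA hB
    set M := Z.filter (fun z => t₁ < sl z ∧ sl z < t₂) with hM
    by_cases hne : M.Nonempty
    · obtain ⟨z₀, hz₀M, hmin⟩ := Finset.exists_min_image M sl hne
      have hz₀ : z₀ ∈ Z := (Finset.mem_filter.mp hz₀M).1
      have hz₀1 : t₁ < sl z₀ := (Finset.mem_filter.mp hz₀M).2.1
      have hz₀2 : sl z₀ < t₂ := (Finset.mem_filter.mp hz₀M).2.2
      have hgap : ∀ z ∈ Z, ¬ (t₁ < sl z ∧ sl z < sl z₀) := by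
        rintro z hz ⟨h1, h2⟩
        have : z ∈ M := Finset.mem_filter.mpr ⟨hz, h1, lt_trans h2 hz₀2⟩
        exact absurd (hmin z this) (not_le.mpr h2)
      have hbef : walkBefore Z sl r (sl z₀) ≤ k := by
        rw [← walk_gap Z sl r hz₀1 hgap]; exact hA
      -- the smaller interval
      have hsub : (Z.filter (fun z => sl z₀ < sl z ∧ sl z < t₂)).card < N := by
        rw [← hN]
        apply Finset.card_lt_card
        refine ⟨?_, ?_⟩
        · intro z hz
          have := Finset.mem_filter.mp hz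
          exact Finset.mem_filter.mpr ⟨this.1, lt_trans hz₀1 this.2.1, this.2.2⟩
        · intro hcon
          have := hcon hz₀M
          have := (Finset.mem_filter.mp this).2.1
          exact lt_irrefl _ this
      by_cases hr : r z₀
      · obtain ⟨e1, e2⟩ := walk_right (r := r) hinj hz₀ hr
        have hA' : walkAfter Z sl r (sl z₀) ≤ k := by omega
        obtain ⟨u, hu, hur, hu1, hu2, hu3⟩ := ih _ hsub (sl z₀) t₂ rfl hz₀2 hA' hB
        exact ⟨u, hu, hur, lt_trans hz₀1 hu1, hu2, hu3⟩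
      · obtain ⟨e1, e2⟩ := walk_left (r := r) hinj hz₀ hr
        by_cases hk : walkAt Z sl r (sl z₀) = k
        · exact ⟨z₀, hz₀, hr, hz₀1, hz₀2, hk⟩
        · have hA' : walkAfter Z sl r (sl z₀) ≤ k := by omega
          obtain ⟨u, hu, hur, hu1, hu2, hu3⟩ := ih _ hsub (sl z₀) t₂ rfl hz₀2 hA' hB
          exact ⟨u, hu, hur, lt_trans hz₀1 hu1, hu2, hu3⟩
    · exfalso
      have hgap : ∀ z ∈ Z, ¬ (t₁ < sl z ∧ sl z < t₂) := by
        intro z hz hc
        exact hne ⟨z, Finset.mem_filter.mpr ⟨hz, hc⟩⟩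
      have := walk_gap Z sl r h12 hgap
      omega

/-- Between two right items that are down-crossings of level `k` there is a left up-crossing. -/
lemma walk_between (hinj : Set.InjOn sl Z) (k : ℕ) {w w' : α} (hw : w ∈ Z) (hw' : w' ∈ Z)
    (hr : r w) (hr' : r w') (hlt : sl w < sl w')
    (h1 : walkAt Z sl r (sl w) = k) (h2 : walkAt Z sl r (sl w') = k) :
    ∃ u ∈ Z, ¬ r u ∧ sl w < sl u ∧ sl u < sl w' ∧ walkAt Z sl r (sl u) = k := by
  have a1 := (walk_right (r := r) hinj hw hr).2
  have a2 := (walk_right (r := r) hinj hw' hr').1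
  exact walk_ivt hinj k _ (sl w) (sl w') rfl hlt (by omega) (by omega)

/-- If at most `k` items are right items, every right down-crossing of level `k` is preceded by a
left up-crossing. -/
lemma walk_first (hinj : Set.InjOn sl Z) (k : ℕ) {w : α} (hw : w ∈ Z) (hr : r w)
    (hcard : (Z.filter (fun z => r z)).card ≤ k)
    (h1 : walkAt Z sl r (sl w) = k) :
    ∃ u ∈ Z, ¬ r u ∧ sl u < sl w ∧ walkAt Z sl r (sl u) = k := by
  obtain ⟨z₀, hz₀, hmin⟩ := Finset.exists_min_image Z sl ⟨w, hw⟩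
  have a2 := (walk_right (r := r) hinj hw hr).1
  have hlt : sl z₀ - 1 < sl w := by
    have := hmin w hw
    linarith
  have hA : walkAfter Z sl r (sl z₀ - 1) ≤ k := by
    unfold walkAfter
    have e1 : (Z.filter (fun z => ¬ r z ∧ sl z ≤ sl z₀ - 1)) = ∅ := by
      apply Finset.filter_eq_empty_iff.mpr
      rintro z hz ⟨_, h⟩
      have := hmin z hz
      linarith
    have e2 : (Z.filter (fun z => r z ∧ sl z₀ - 1 < sl z)).card ≤ (Z.filter (fun z => r z)).card := by
      apply Finset.card_le_card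
      intro z hz
      have := Finset.mem_filter.mp hz
      exact Finset.mem_filter.mpr ⟨this.1, this.2.1⟩
    rw [e1]
    simp only [Finset.card_empty, add_zero]
    omega
  obtain ⟨u, hu, hur, _, hu2, hu3⟩ := walk_ivt hinj k _ (sl z₀ - 1) (sl w) rfl hlt hA (by omega)
  exact ⟨u, hu, hur, hu2, hu3⟩

end Vale.Agent.P065
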