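import Mathlib
import Vale.Agent.P065.Defs
import Vale.Agent.P065.Walk

/-!
Geometry around one vertex: slopes, counting points above a line, link with the abstract walk.
-/

namespace Vale.Agent.P065

open Finset

/-- sheared abscissa -/
def shX (t : ℝ) (p : ℝ × ℝ) : ℝ := p.1 + t * p.2

/-- slope of the line through `v` and `z` in the sheared coordinates -/
noncomputable def slope (t : ℝ) (v z : ℝ × ℝ) : ℝ := (z.2 - v.2) / (shX t z - shX t v)

lemma det3_shX (t : ℝ) (p q r : ℝ × ℝ) :
    det3 p q r = (shX t q - shX t p) * (r.2 - p.2) - (q.2 - p.2) * (shX t r - shX t p) := by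
  unfold det3 shX; ring

lemma slope_comm (t : ℝ) (v z : ℝ × ℝ) : slope t v z = slope t z v := by
  unfold slope
  rw [← neg_div_neg_eq]
  congr 1 <;> ring

lemma det3_slope (t : ℝ) {v z y : ℝ × ℝ} (hz : shX t z ≠ shX t v) (hy : shX t y ≠ shX t v) :
    det3 v z y = (shX t z - shX t v) * (shX t y - shX t v) * (slope t v y - slope t v z) := by
  have h1 : shX t z - shX t v ≠ 0 := sub_ne_zero.mpr hz
  have h2 : shX t y - shX t v ≠ 0 := sub_ne_zero.mpr hy
  rw [det3_shX t]
  unfold slope
  field_simp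

lemma det3_swap (u v y : ℝ × ℝ) : det3 u v y = - det3 v u y := by
  unfold det3; ring

lemma det3_self_left (v w : ℝ × ℝ) : det3 v w v = 0 := by
  unfold det3; ring

/-- number of points of `P` strictly to the left of the directed line `v → w` -/
noncomputable def upCount (P : Finset (ℝ × ℝ)) (v w : ℝ × ℝ) : ℕ :=
  (P.filter (fun y => 0 < det3 v w y)).card

/-- General position in determinant form. -/
def GenPos (P : Finset (ℝ × ℝ)) : Prop :=
  ∀ p ∈ P, ∀ q ∈ P, ∀ r ∈ P, p ≠ q → p ≠ r → q ≠ r → det3 p q r ≠ 0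

variable {t : ℝ} {P : Finset (ℝ × ℝ)}

lemma slope_injOn (hX : Set.InjOn (shX t) P) (hgp : GenPos P) {v : ℝ × ℝ} (hv : v ∈ P) :
    Set.InjOn (slope t v) (P.erase v : Finset (ℝ × ℝ)) := by
  intro z hz y hy hzy
  have hz' := Finset.mem_erase.mp (Finset.mem_coe.mp hz)
  have hy' := Finset.mem_erase.mp (Finset.mem_coe.mp hy)
  by_contra hne
  have h1 : shX t z ≠ shX t v := fun h => hz'.1 (hX hz'.2 hv h)
  have h2 : shX t y ≠ shX t v := fun h => hy'.1 (hX hy'.2 hv h)
  have := det3_slope t h1 h2
  rw [hzy, sub_self, mul_zero] at this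
  exact hgp v hv z hz'.2 y hy'.2 (Ne.symm hz'.1) (Ne.symm hy'.1) hne this

/-- the walk around `v` -/
noncomputable def vwalk (t : ℝ) (P : Finset (ℝ × ℝ)) (v : ℝ × ℝ) (s : ℝ) : ℕ :=
  walkAt (P.erase v) (slope t v) (fun z => shX t v < shX t z) s

lemma upCount_eq_aux (hX : Set.InjOn (shX t) P) {v z : ℝ × ℝ} (hv : v ∈ P)
    (f : ℝ × ℝ → ℝ)
    (hf0 : f v = 0)
    (hf : ∀ y ∈ P, y ≠ v → ∃ c : ℝ, 0 < c ∧
      f y = c * ((shX t y - shX t v) * (slope t v y - slope t v z))) :
    (P.filter (fun y => 0 < f y)).card = vwalk t P v (slope t v z) := by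
  unfold vwalk walkAt
  rw [← Finset.card_union_of_disjoint]
  · congr 1
    ext y
    simp only [mem_filter, mem_union, mem_erase]
    constructor
    · rintro ⟨hy, hpos⟩
      have hyv : y ≠ v := by
        rintro rfl
        rw [hf0] at hpos
        exact lt_irrefl _ hpos
      obtain ⟨c, hc, hfy⟩ := hf y hy hyv
      rw [hfy] at hpos
      have hpos' : 0 < (shX t y - shX t v) * (slope t v y - slope t v z) :=
        (mul_pos_iff_of_pos_left hc).mp hpos
      have hne : shX t y ≠ shX t v := fun h => hyv (hX hy hv h)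
      rcases lt_or_gt_of_ne hne with h | h
      · right
        refine ⟨⟨hyv, hy⟩, not_lt.mpr (le_of_lt h), ?_⟩
        have : shX t y - shX t v < 0 := by linarith
        have := (neg_of_mul_pos_right hpos' (le_of_lt this))
        linarith
      · left
        refine ⟨⟨hyv, hy⟩, h, ?_⟩
        have : 0 < shX t y - shX t v := by linarith
        have := (mul_pos_iff_of_pos_left this).mp hpos'
        linarith
    · rintro (⟨⟨hyv, hy⟩, h, hs⟩ | ⟨⟨hyv, hy⟩, h, hs⟩)
      · refine ⟨hy, ?_⟩
        obtain ⟨c, hc, hfy⟩ := hf y hy hyv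
        rw [hfy]
        apply mul_pos hc
        apply mul_pos <;> linarith
      · refine ⟨hy, ?_⟩
        obtain ⟨c, hc, hfy⟩ := hf y hy hyv
        rw [hfy]
        apply mul_pos hc
        have hne : shX t y ≠ shX t v := fun h => hyv (hX hy hv h)
        have h' : shX t y < shX t v := lt_of_le_of_ne (not_lt.mp h) hne
        apply mul_pos_of_neg_of_neg <;> linarith
  · rw [Finset.disjoint_filter]
    rintro y _ ⟨h1, _⟩ ⟨h2, _⟩
    exact h2 h1

lemma upCount_right (hX : Set.InjOn (shX t) P) {v w : ℝ × ℝ} (hv : v ∈ P)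
    (hvw : shX t v < shX t w) :
    upCount P v w = vwalk t P v (slope t v w) := by
  unfold upCount
  apply upCount_eq_aux hX hv (fun y => det3 v w y) (det3_self_left v w)
  intro y hy hyv
  refine ⟨shX t w - shX t v, by linarith, ?_⟩
  have hne : shX t y ≠ shX t v := fun h => hyv (hX hy hv h)
  rw [det3_slope t (ne_of_gt hvw) hne]
  ring

lemma upCount_left (hX : Set.InjOn (shX t) P) {u v : ℝ × ℝ} (hv : v ∈ P)
    (huv : shX t u < shX t v) :
    upCount P u v = vwalk t P v (slope t v u) := by
  unfold upCount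
  apply upCount_eq_aux hX hv (fun y => det3 u v y)
  · show det3 u v v = 0
    unfold det3; ring
  intro y hy hyv
  refine ⟨shX t v - shX t u, by linarith, ?_⟩
  have hne : shX t y ≠ shX t v := fun h => hyv (hX hy hv h)
  show det3 u v y = _
  rw [det3_swap, det3_slope t (ne_of_lt huv) hne]
  ring

end Vale.Agent.P065
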