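import Mathlib
import Vale.Agent.P065.Geom

/-!
Convex chain decomposition of the rightward edges having exactly `k` points above.
-/

namespace Vale.Agent.P065

open Finset

/-- rightward edges of `P` with exactly `k` points strictly above -/
noncomputable def kEdges (t : ℝ) (P : Finset (ℝ × ℝ)) (k : ℕ) : Finset ((ℝ × ℝ) × (ℝ × ℝ)) :=
  (P ×ˢ P).filter (fun e => shX t e.1 < shX t e.2 ∧ upCount P e.1 e.2 = k)

/-- slope of an edge -/
noncomputable def eslope (t : ℝ) (e : (ℝ × ℝ) × (ℝ × ℝ)) : ℝ := slope t e.1 e.2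

/-- `e'` is the predecessor of `e` in its convex chain -/
def IsPred (t : ℝ) (P : Finset (ℝ × ℝ)) (k : ℕ) (e' e : (ℝ × ℝ) × (ℝ × ℝ)) : Prop :=
  e'.2 = e.1 ∧ eslope t e' < eslope t e ∧
    ∀ f ∈ kEdges t P k, f.1 = e.1 → eslope t e' < eslope t f → eslope t e ≤ eslope t f

variable {t : ℝ} {P : Finset (ℝ × ℝ)} {k : ℕ}

lemma mem_kEdges {e : (ℝ × ℝ) × (ℝ × ℝ)} :
    e ∈ kEdges t P k ↔ e.1 ∈ P ∧ e.2 ∈ P ∧ shX t e.1 < shX t e.2 ∧ upCount P e.1 e.2 = k := by
  unfold kEdges
  simp only [mem_filter, mem_product]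
  tauto

/-- alternation: between two right edges at `v` there is a left edge -/
lemma exists_left_between (hX : Set.InjOn (shX t) P) (hgp : GenPos P)
    {e₁ e₂ : (ℝ × ℝ) × (ℝ × ℝ)} (h₁ : e₁ ∈ kEdges t P k) (h₂ : e₂ ∈ kEdges t P k)
    (h12 : e₁.1 = e₂.1) (hlt : eslope t e₁ < eslope t e₂) :
    ∃ e' ∈ kEdges t P k, e'.2 = e₂.1 ∧ eslope t e₁ < eslope t e' ∧ eslope t e' < eslope t e₂ := by
  obtain ⟨a1, a2, a3, a4⟩ := mem_kEdges.mp h₁
  obtain ⟨b1, b2, b3, b4⟩ := mem_kEdges.mp h₂
  set v := e₂.1 with hv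
  rw [h12] at a1 a3 a4
  unfold eslope at hlt ⊢
  rw [h12] at hlt ⊢
  rw [← hv] at hlt ⊢
  have hinj := slope_injOn hX hgp b1
  have hw1 : e₁.2 ∈ P.erase v := Finset.mem_erase.mpr ⟨fun h => by rw [h] at a3; exact lt_irrefl _ a3, a2⟩
  have hw2 : e₂.2 ∈ P.erase v := Finset.mem_erase.mpr ⟨fun h => by rw [h] at b3; exact lt_irrefl _ b3, b2⟩
  rw [upCount_right hX b1 a3] at a4
  rw [upCount_right hX b1 b3] at b4
  obtain ⟨u, hu, hur, hu1, hu2, hu3⟩ :=
    walk_between (r := fun z => shX t v < shX t z) hinj k hw1 hw2 a3 b3 hlt a4 b4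
  have hu' := Finset.mem_erase.mp hu
  have hne : shX t u ≠ shX t v := fun h => hu'.1 (hX hu'.2 b1 h)
  have hlt' : shX t u < shX t v := lt_of_le_of_ne (not_lt.mp hur) hne
  refine ⟨(u, v), mem_kEdges.mpr ⟨hu'.2, b1, hlt', ?_⟩, rfl, ?_, ?_⟩
  · rw [upCount_left hX b1 hlt']; exact hu3
  · show slope t v e₁.2 < slope t u v
    rw [slope_comm t u v]; exact hu1
  · show slope t u v < slope t v e₂.2
    rw [slope_comm t u v]; exact hu2

/-- if at most `k` points lie to the right of `v`, each right edge at `v` has a left edge of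
smaller slope -/
lemma exists_left_before (hX : Set.InjOn (shX t) P) (hgp : GenPos P)
    {e : (ℝ × ℝ) × (ℝ × ℝ)} (h : e ∈ kEdges t P k)
    (hcard : (P.filter (fun z => shX t e.1 < shX t z)).card ≤ k) :
    ∃ e' ∈ kEdges t P k, e'.2 = e.1 ∧ eslope t e' < eslope t e := by
  obtain ⟨b1, b2, b3, b4⟩ := mem_kEdges.mp h
  set v := e.1 with hv
  unfold eslope
  rw [← hv]
  have hinj := slope_injOn hX hgp b1
  have hw2 : e.2 ∈ P.erase v := Finset.mem_erase.mpr ⟨fun h => by rw [h] at b3; exact lt_irrefl _ b3, b2⟩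
  rw [upCount_right hX b1 b3] at b4
  have hcard' : ((P.erase v).filter (fun z => shX t v < shX t z)).card ≤ k := by
    refine le_trans (Finset.card_le_card ?_) hcard
    apply Finset.filter_subset_filter
    exact Finset.erase_subset _ _
  obtain ⟨u, hu, hur, hu2, hu3⟩ :=
    walk_first (r := fun z => shX t v < shX t z) hinj k hw2 b3 hcard' b4
  have hu' := Finset.mem_erase.mp hu
  have hne : shX t u ≠ shX t v := fun h => hu'.1 (hX hu'.2 b1 h)
  have hlt' : shX t u < shX t v := lt_of_le_of_ne (not_lt.mp hur) hne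
  refine ⟨(u, v), mem_kEdges.mpr ⟨hu'.2, b1, hlt', ?_⟩, rfl, ?_⟩
  · rw [upCount_left hX b1 hlt']; exact hu3
  · show slope t u v < slope t v e.2
    rw [slope_comm t u v]; exact hu2

/-- equal slopes at the same left endpoint force equal edges -/
lemma edge_ext (hX : Set.InjOn (shX t) P) (hgp : GenPos P)
    {e₁ e₂ : (ℝ × ℝ) × (ℝ × ℝ)} (h₁ : e₁ ∈ kEdges t P k) (h₂ : e₂ ∈ kEdges t P k)
    (h12 : e₁.1 = e₂.1) (hs : eslope t e₁ = eslope t e₂) : e₁ = e₂ := by
  obtain ⟨a1, a2, a3, a4⟩ := mem_kEdges.mp h₁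
  obtain ⟨b1, b2, b3, b4⟩ := mem_kEdges.mp h₂
  have hinj := slope_injOn hX hgp b1
  unfold eslope at hs
  rw [h12] at hs a3
  have hw1 : e₁.2 ∈ P.erase e₂.1 := Finset.mem_erase.mpr ⟨fun h => by rw [h] at a3; exact lt_irrefl _ a3, a2⟩
  have hw2 : e₂.2 ∈ P.erase e₂.1 := Finset.mem_erase.mpr ⟨fun h => by rw [h] at b3; exact lt_irrefl _ b3, b2⟩
  have := hinj (Finset.mem_coe.mpr hw1) (Finset.mem_coe.mpr hw2) hs
  exact Prod.ext h12 this

/-- an edge having some left edge of smaller slope at its left endpoint has a predecessor -/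
lemma exists_pred (hX : Set.InjOn (shX t) P) (hgp : GenPos P)
    {e : (ℝ × ℝ) × (ℝ × ℝ)} (h : e ∈ kEdges t P k)
    (hex : ∃ e' ∈ kEdges t P k, e'.2 = e.1 ∧ eslope t e' < eslope t e) :
    ∃ e' ∈ kEdges t P k, IsPred t P k e' e := by
  classical
  set C := (kEdges t P k).filter (fun e' => e'.2 = e.1 ∧ eslope t e' < eslope t e) with hC
  have hne : C.Nonempty := by
    obtain ⟨e', he', h1, h2⟩ := hex
    exact ⟨e', Finset.mem_filter.mpr ⟨he', h1, h2⟩⟩
  obtain ⟨e', he'C, hmax⟩ := Finset.exists_max_image C (eslope t) hne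
  obtain ⟨he', h1, h2⟩ := Finset.mem_filter.mp he'C
  refine ⟨e', he', h1, h2, ?_⟩
  intro f hf hf1 hlt
  by_contra hcon
  have hcon' : eslope t f < eslope t e := not_le.mp hcon
  obtain ⟨e'', he'', g1, g2, g3⟩ := exists_left_between hX hgp hf h hf1 hcon'
  have : e'' ∈ C := Finset.mem_filter.mpr ⟨he'', g1, g3⟩
  have := hmax e'' this
  linarith

lemma succ_unique (hX : Set.InjOn (shX t) P) (hgp : GenPos P)
    {e' e₁ e₂ : (ℝ × ℝ) × (ℝ × ℝ)} (h₁ : e₁ ∈ kEdges t P k) (h₂ : e₂ ∈ kEdges t P k)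
    (p₁ : IsPred t P k e' e₁) (p₂ : IsPred t P k e' e₂) : e₁ = e₂ := by
  have h12 : e₁.1 = e₂.1 := by rw [← p₁.1, ← p₂.1]
  apply edge_ext hX hgp h₁ h₂ h12
  apply le_antisymm
  · exact p₁.2.2 e₂ h₂ h12.symm p₂.2.1
  · exact p₂.2.2 e₁ h₁ h12 p₁.2.1

open Classical in
/-- the edges at position `j` of their chain -/
noncomputable def lev (t : ℝ) (P : Finset (ℝ × ℝ)) (k : ℕ) : ℕ → Finset ((ℝ × ℝ) × (ℝ × ℝ))
  | 0 => (kEdges t P k).filter (fun e => ∀ e' ∈ kEdges t P k, ¬ IsPred t P k e' e)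
  | (j + 1) => (kEdges t P k).filter (fun e => ∃ e' ∈ lev t P k j, IsPred t P k e' e)

lemma mem_lev_zero {e : (ℝ × ℝ) × (ℝ × ℝ)} : e ∈ lev t P k 0 ↔
    e ∈ kEdges t P k ∧ ∀ e' ∈ kEdges t P k, ¬ IsPred t P k e' e := by
  simp only [lev, Finset.mem_filter]

lemma mem_lev_succ {j : ℕ} {e : (ℝ × ℝ) × (ℝ × ℝ)} : e ∈ lev t P k (j + 1) ↔
    e ∈ kEdges t P k ∧ ∃ e' ∈ lev t P k j, IsPred t P k e' e := by
  simp only [lev, Finset.mem_filter]

lemma lev_subset (j : ℕ) : lev t P k j ⊆ kEdges t P k := by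
  intro e he
  cases j with
  | zero => exact (mem_lev_zero.mp he).1
  | succ j => exact (mem_lev_succ.mp he).1

lemma card_lev_succ_le (hX : Set.InjOn (shX t) P) (hgp : GenPos P) (j : ℕ) :
    (lev t P k (j + 1)).card ≤ (lev t P k j).card := by
  apply Finset.card_le_card_of_forall_subsingleton (fun e e' => IsPred t P k e' e)
  · intro e he
    exact (mem_lev_succ.mp he).2
  · intro e' _ e₁ h₁ e₂ h₂
    exact succ_unique hX hgp (lev_subset _ h₁.1) (lev_subset _ h₂.1) h₁.2 h₂.2

lemma card_right_heavy (hX : Set.InjOn (shX t) P) :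
    (P.filter (fun v => k + 1 ≤ (P.filter (fun z => shX t v < shX t z)).card)).card
      ≤ P.card - (k + 1) := by
  have : (P.filter (fun v => k + 1 ≤ (P.filter (fun z => shX t v < shX t z)).card)).card
      ≤ (Finset.Ico (k + 1) P.card).card := by
    apply Finset.card_le_card_of_injOn (fun v => (P.filter (fun z => shX t v < shX t z)).card)
    · intro v hv
      have hv' := Finset.mem_filter.mp (Finset.mem_coe.mp hv)
      simp only [Finset.coe_Ico, Set.mem_Ico]
      refine ⟨hv'.2, ?_⟩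
      apply Finset.card_lt_card
      refine ⟨Finset.filter_subset _ _, ?_⟩
      intro hcon
      have := (Finset.mem_filter.mp (hcon hv'.1)).2
      exact lt_irrefl _ this
    · intro v hv v' hv' heq
      have hv1 := (Finset.mem_filter.mp (Finset.mem_coe.mp hv)).1
      have hv1' := (Finset.mem_filter.mp (Finset.mem_coe.mp hv')).1
      by_contra hne
      have hXne : shX t v ≠ shX t v' := fun h => hne (hX hv1 hv1' h)
      have key : ∀ a ∈ P, ∀ b ∈ P, shX t a < shX t b →
          (P.filter (fun z => shX t b < shX t z)).card < (P.filter (fun z => shX t a < shX t z)).card := by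
        intro a _ b hb hab
        apply Finset.card_lt_card
        refine ⟨?_, ?_⟩
        · intro z hz
          have := Finset.mem_filter.mp hz
          exact Finset.mem_filter.mpr ⟨this.1, lt_trans hab this.2⟩
        · intro hcon
          have : b ∈ P.filter (fun z => shX t a < shX t z) := Finset.mem_filter.mpr ⟨hb, hab⟩
          have := (Finset.mem_filter.mp (hcon this)).2
          exact lt_irrefl _ this
      simp only at heq
      rcases lt_or_gt_of_ne hXne with h | h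
      · have := key v hv1 v' hv1' h; omega
      · have := key v' hv1' v hv1 h; omega
  simpa using this

lemma card_lev_zero_le (hX : Set.InjOn (shX t) P) (hgp : GenPos P) :
    (lev t P k 0).card ≤ P.card - (k + 1) := by
  refine le_trans ?_ (card_right_heavy (k := k) hX)
  have hno : ∀ e ∈ lev t P k 0, ¬ ∃ e' ∈ kEdges t P k, e'.2 = e.1 ∧ eslope t e' < eslope t e := by
    intro e he hex
    have he' := mem_lev_zero.mp he
    obtain ⟨e', h1, h2⟩ := exists_pred hX hgp he'.1 hex
    exact he'.2 e' h1 h2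
  apply Finset.card_le_card_of_injOn (fun e => e.1)
  · intro e he
    have he0 := Finset.mem_coe.mp he
    have he' := mem_lev_zero.mp he0
    refine Finset.mem_coe.mpr (Finset.mem_filter.mpr ⟨(mem_kEdges.mp he'.1).1, ?_⟩)
    by_contra hcon
    simp only at hcon
    exact hno e he0 (exists_left_before hX hgp he'.1 (by omega))
  · intro e₁ h₁ e₂ h₂ h12
    have h₁' := Finset.mem_coe.mp h₁
    have h₂' := Finset.mem_coe.mp h₂
    have g₁ := lev_subset _ h₁'
    have g₂ := lev_subset _ h₂'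
    simp only at h12
    apply edge_ext hX hgp g₁ g₂ h12
    by_contra hne
    rcases lt_or_gt_of_ne hne with h | h
    · obtain ⟨e', he', a1, _, a3⟩ := exists_left_between hX hgp g₁ g₂ h12 h
      exact hno e₂ h₂' ⟨e', he', a1, a3⟩
    · obtain ⟨e', he', a1, _, a3⟩ := exists_left_between hX hgp g₂ g₁ h12.symm h
      exact hno e₁ h₁' ⟨e', he', a1, a3⟩

lemma card_lev_le (hX : Set.InjOn (shX t) P) (hgp : GenPos P) (j : ℕ) :
    (lev t P k j).card ≤ P.card - (k + 1) := by
  induction j with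
  | zero => exact card_lev_zero_le hX hgp
  | succ j ih => exact le_trans (card_lev_succ_le hX hgp j) ih

/-- every edge lies on some level -/
lemma exists_lev : ∀ (N : ℕ) (e : (ℝ × ℝ) × (ℝ × ℝ)), e ∈ kEdges t P k →
    (P.filter (fun z => shX t z < shX t e.1)).card = N → ∃ j, e ∈ lev t P k j := by
  intro N
  induction N using Nat.strong_induction_on with
  | _ N ih =>
    intro e he hN
    by_cases hp : ∃ e' ∈ kEdges t P k, IsPred t P k e' e
    · obtain ⟨e', he', hpred⟩ := hp
      obtain ⟨a1, a2, a3, a4⟩ := mem_kEdges.mp he'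
      have hlt : (P.filter (fun z => shX t z < shX t e'.1)).card < N := by
        rw [← hN]
        apply Finset.card_lt_card
        refine ⟨?_, ?_⟩
        · intro z hz
          have := Finset.mem_filter.mp hz
          refine Finset.mem_filter.mpr ⟨this.1, ?_⟩
          rw [← hpred.1]
          exact lt_trans this.2 a3
        · intro hcon
          have : e'.1 ∈ P.filter (fun z => shX t z < shX t e.1) :=
            Finset.mem_filter.mpr ⟨a1, by rw [← hpred.1]; exact a3⟩
          have := (Finset.mem_filter.mp (hcon this)).2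
          exact lt_irrefl _ this
      obtain ⟨j, hj⟩ := ih _ hlt e' he' rfl
      exact ⟨j + 1, mem_lev_succ.mpr ⟨he, e', hj, hpred⟩⟩
    · refine ⟨0, mem_lev_zero.mpr ⟨he, ?_⟩⟩
      intro e' he' hpred
      exact hp ⟨e', he', hpred⟩

end Vale.Agent.P065
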