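import Mathlib
import Vale.Agent.P065.Defs

/-!
Halving edges leaving a set `K` and halving edges passing through `K`.
-/

namespace Vale.Agent.P065

open Classical in
/-- The halving pairs of `P` with exactly one endpoint in `K`. -/
noncomputable def leavingPairs (P : Finset (ℝ × ℝ)) (K : Set (ℝ × ℝ)) : Finset (Finset (ℝ × ℝ)) :=
  (halvingPairs P).filter (fun s => ∃ p q, s = {p, q} ∧ p ∈ K ∧ q ∉ K)

open Classical in
/-- The halving pairs of `P` with both endpoints outside `K` whose segment meets `K`. -/
noncomputable def throughPairs (P : Finset (ℝ × ℝ)) (K : Set (ℝ × ℝ)) : Finset (Finset (ℝ × ℝ)) :=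
  (halvingPairs P).filter (fun s => ∃ p q, s = {p, q} ∧ p ∉ K ∧ q ∉ K ∧
    (segment ℝ p q ∩ K).Nonempty)

end Vale.Agent.P065
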