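import Mathlib
import Vale.Agent.P065.Chains

/-!
Cups: chains are cups, cups are convex independent, and the resulting counting bound.
-/

namespace Vale.Agent.P065

open Finset

/-- a cup (with respect to the sheared abscissa): every ordered triple turns left -/
def IsCup (t : ℝ) (S : Finset (ℝ × ℝ)) : Prop :=
  ∀ a ∈ S, ∀ b ∈ S, ∀ c ∈ S, shX t a < shX t b → shX t b < shX t c → 0 < det3 a b c

lemma four_pt_one (t : ℝ) {a b v w : ℝ × ℝ} (hab : shX t a < shX t b) (hbv : shX t b < shX t v)
    (hvw : shX t v < shX t w) (h1 : 0 < det3 a b v) (h2 : 0 < det3 b v w) : 0 < det3 a b w := by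
  have key : (shX t v - shX t b) * det3 a b w
      = (shX t w - shX t b) * det3 a b v + (shX t b - shX t a) * det3 b v w := by
    rw [det3_shX t a b w, det3_shX t a b v, det3_shX t b v w]; ring
  have hpos : 0 < (shX t v - shX t b) * det3 a b w := by
    rw [key]
    apply add_pos
    · apply mul_pos _ h1; linarith
    · apply mul_pos _ h2; linarith
  exact (mul_pos_iff_of_pos_left (by linarith)).mp hpos

lemma four_pt_two (t : ℝ) {a u v w : ℝ × ℝ} (hau : shX t a < shX t u) (huv : shX t u < shX t v)
    (hvw : shX t v < shX t w) (h1 : 0 < det3 a u v) (h2 : 0 < det3 u v w) : 0 < det3 a v w := by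
  have key : (shX t v - shX t u) * det3 a v w
      = (shX t w - shX t v) * det3 a u v + (shX t v - shX t a) * det3 u v w := by
    rw [det3_shX t a v w, det3_shX t a u v, det3_shX t u v w]; ring
  have hpos : 0 < (shX t v - shX t u) * det3 a v w := by
    rw [key]
    apply add_pos
    · apply mul_pos _ h1; linarith
    · apply mul_pos _ h2; linarith
  exact (mul_pos_iff_of_pos_left (by linarith)).mp hpos

lemma det3_mid (t : ℝ) {u v w : ℝ × ℝ} (huv : shX t u < shX t v) (hvw : shX t v < shX t w) :
    det3 u v w = (shX t v - shX t u) * (shX t w - shX t v) * (slope t v w - slope t v u) := by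
  rw [det3_swap, det3_slope t (ne_of_lt huv) (ne_of_gt hvw)]
  ring

lemma det3_pos_of_slope_lt (t : ℝ) {u v w : ℝ × ℝ} (huv : shX t u < shX t v)
    (hvw : shX t v < shX t w) (hs : slope t u v < slope t v w) : 0 < det3 u v w := by
  rw [det3_mid t huv hvw]
  rw [slope_comm t u v] at hs
  apply mul_pos
  · apply mul_pos <;> linarith
  · linarith

lemma slope_lt_of_det3_pos (t : ℝ) {u v w : ℝ × ℝ} (huv : shX t u < shX t v)
    (hvw : shX t v < shX t w) (hd : 0 < det3 u v w) : slope t v u < slope t v w := by
  rw [det3_mid t huv hvw] at hd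
  have h1 : 0 < (shX t v - shX t u) * (shX t w - shX t v) := by
    apply mul_pos <;> linarith
  have := (mul_pos_iff_of_pos_left h1).mp hd
  linarith

variable {t : ℝ} {P : Finset (ℝ × ℝ)} {k : ℕ}

/-- an edge at level `j` is the last edge of a cup with `j + 2` vertices -/
lemma lev_cup (hX : Set.InjOn (shX t) P) : ∀ (j : ℕ) (e : (ℝ × ℝ) × (ℝ × ℝ)), e ∈ lev t P k j →
    ∃ S : Finset (ℝ × ℝ), S ⊆ P ∧ S.card = j + 2 ∧ IsCup t S ∧ e.1 ∈ S ∧ e.2 ∈ S ∧
      (∀ z ∈ S, z ≠ e.2 → shX t z ≤ shX t e.1) := by
  intro j
  induction j with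
  | zero =>
    intro e he
    obtain ⟨a1, a2, a3, a4⟩ := mem_kEdges.mp (lev_subset _ he)
    have hne : e.1 ≠ e.2 := fun h => by rw [h] at a3; exact lt_irrefl _ a3
    refine ⟨{e.1, e.2}, ?_, Finset.card_pair hne, ?_, by simp, by simp, ?_⟩
    · intro z hz
      rcases Finset.mem_insert.mp hz with h | h
      · rw [h]; exact a1
      · rw [Finset.mem_singleton.mp h]; exact a2
    · intro a ha b hb c hc hab hbc
      exfalso
      simp only [Finset.mem_insert, Finset.mem_singleton] at ha hb hc
      rcases ha with rfl | rfl <;> rcases hb with rfl | rfl <;> rcases hc with rfl | rfl <;>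
        linarith
    · intro z hz hne2
      simp only [Finset.mem_insert, Finset.mem_singleton] at hz
      rcases hz with rfl | rfl
      · exact le_refl _
      · exact absurd rfl hne2
  | succ j ih =>
    intro e he
    obtain ⟨heE, e', he', hpred⟩ := mem_lev_succ.mp he
    obtain ⟨a1, a2, a3, a4⟩ := mem_kEdges.mp heE
    obtain ⟨b1, b2, b3, b4⟩ := mem_kEdges.mp (lev_subset _ he')
    obtain ⟨S, hSP, hcard, hcup, hu, hv, hlast⟩ := ih e' he'
    obtain ⟨hv_eq, hslope, _⟩ := hpred
    -- abbreviations
    set u := e'.1 with hu_def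
    set v := e.1 with hv_def
    set w := e.2 with hw_def
    rw [hv_eq] at b2 b3 hv hlast
    have hSle : ∀ z ∈ S, shX t z ≤ shX t v := by
      intro z hz
      by_cases hzv : z = v
      · rw [hzv]
      · exact le_trans (hlast z hz hzv) (le_of_lt b3)
    have hwS : w ∉ S := by
      intro hw
      have := hSle w hw
      linarith
    have huvw : 0 < det3 u v w := by
      apply det3_pos_of_slope_lt t b3 a3
      have : eslope t e' = slope t u v := by unfold eslope; rw [hv_eq]
      rw [← this]
      exact hslope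
    -- points before v
    have hav : ∀ a ∈ S, shX t a < shX t v → 0 < det3 a v w := by
      intro a ha hlt
      have hne : a ≠ v := fun h => by rw [h] at hlt; exact lt_irrefl _ hlt
      have hle := hlast a ha hne
      by_cases hau : a = u
      · rw [hau]; exact huvw
      · have hne' : shX t a ≠ shX t u := fun h => hau (hX (hSP ha) (hSP hu) h)
        have hlt' : shX t a < shX t u := lt_of_le_of_ne hle hne'
        exact four_pt_two t hlt' b3 a3 (hcup a ha u hu v hv hlt' b3) huvw
    have habw : ∀ a ∈ S, ∀ b ∈ S, shX t a < shX t b → 0 < det3 a b w := by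
      intro a ha b hb hab
      by_cases hbv : b = v
      · rw [hbv]; rw [hbv] at hab; exact hav a ha hab
      · have hne' : shX t b ≠ shX t v := fun h => hbv (hX (hSP hb) (hSP hv) h)
        have hlt' : shX t b < shX t v := lt_of_le_of_ne (hSle b hb) hne'
        exact four_pt_one t hab hlt' a3 (hcup a ha b hb v hv hab hlt') (hav b hb hlt')
    refine ⟨insert w S, ?_, ?_, ?_, ?_, ?_, ?_⟩
    · intro z hz
      rcases Finset.mem_insert.mp hz with h | h
      · rw [h]; exact a2
      · exact hSP h
    · rw [Finset.card_insert_of_notMem hwS, hcard]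
    · intro a ha b hb c hc hab hbc
      have hlew : ∀ z ∈ insert w S, shX t z ≤ shX t w := by
        intro z hz
        rcases Finset.mem_insert.mp hz with h | h
        · rw [h]
        · exact le_trans (hSle z h) (le_of_lt a3)
      have haS : a ∈ S := by
        rcases Finset.mem_insert.mp ha with h | h
        · exfalso; rw [h] at hab; have := hlew b hb; linarith
        · exact h
      have hbS : b ∈ S := by
        rcases Finset.mem_insert.mp hb with h | h
        · exfalso; rw [h] at hbc; have := hlew c hc; linarith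
        · exact h
      rcases Finset.mem_insert.mp hc with h | h
      · rw [h]; exact habw a haS b hbS hab
      · exact hcup a haS b hbS c h hab hbc
    · exact Finset.mem_insert_of_mem hv
    · exact Finset.mem_insert_self _ _
    · intro z hz hzw
      rcases Finset.mem_insert.mp hz with h | h
      · exact absurd h hzw
      · exact hSle z h

lemma exists_between_finsets (A B : Finset ℝ) (h : ∀ a ∈ A, ∀ b ∈ B, a < b) :
    ∃ s : ℝ, (∀ a ∈ A, a < s) ∧ (∀ b ∈ B, s < b) := by
  by_cases hA : A.Nonempty
  · by_cases hB : B.Nonempty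
    · refine ⟨(A.max' hA + B.min' hB) / 2, ?_, ?_⟩
      · intro a ha
        have h1 := A.le_max' a ha
        have h2 := h _ (A.max'_mem hA) _ (B.min'_mem hB)
        linarith
      · intro b hb
        have h1 := B.min'_le b hb
        have h2 := h _ (A.max'_mem hA) _ (B.min'_mem hB)
        linarith
    · refine ⟨A.max' hA + 1, ?_, ?_⟩
      · intro a ha
        have h1 := A.le_max' a ha
        linarith
      · intro b hb
        exact absurd ⟨b, hb⟩ hB
  · by_cases hB : B.Nonempty
    · refine ⟨B.min' hB - 1, ?_, ?_⟩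
      · intro a ha
        exact absurd ⟨a, ha⟩ hA
      · intro b hb
        have h1 := B.min'_le b hb
        linarith
    · exact ⟨0, fun a ha => absurd ⟨a, ha⟩ hA, fun b hb => absurd ⟨b, hb⟩ hB⟩

/-- cups are in convex position -/
lemma IsCup.convexIndependent {S : Finset (ℝ × ℝ)} (hXS : Set.InjOn (shX t) S) (hS : IsCup t S) :
    ConvexIndependent ℝ (Subtype.val : ↥(S : Set (ℝ × ℝ)) → ℝ × ℝ) := by
  rw [convexIndependent_set_iff_notMem_convexHull_sdiff]
  intro x hx hmem
  have hxS : x ∈ S := Finset.mem_coe.mp hx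
  obtain ⟨s, hsA, hsB⟩ := exists_between_finsets
    ((S.filter (fun a => shX t a < shX t x)).image (slope t x))
    ((S.filter (fun c => shX t x < shX t c)).image (slope t x)) (by
      intro a ha b hb
      obtain ⟨a', ha', rfl⟩ := Finset.mem_image.mp ha
      obtain ⟨b', hb', rfl⟩ := Finset.mem_image.mp hb
      obtain ⟨ha1, ha2⟩ := Finset.mem_filter.mp ha'
      obtain ⟨hb1, hb2⟩ := Finset.mem_filter.mp hb'
      exact slope_lt_of_det3_pos t ha2 hb2 (hS a' ha1 x hxS b' hb1 ha2 hb2))
  have hlin : IsLinearMap ℝ (fun z : ℝ × ℝ => z.2 - s * (z.1 + t * z.2)) := by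
    constructor
    · intro a b; simp only [Prod.snd_add, Prod.fst_add]; ring
    · intro c a; simp only [Prod.smul_snd, Prod.smul_fst, smul_eq_mul]; ring
  have hconv := convex_halfSpace_gt (𝕜 := ℝ) hlin (x.2 - s * (x.1 + t * x.2))
  have hsub : ((S : Set (ℝ × ℝ)) \ {x}) ⊆
      {z : ℝ × ℝ | x.2 - s * (x.1 + t * x.2) < z.2 - s * (z.1 + t * z.2)} := by
    rintro z ⟨hz, hzx⟩
    have hzS : z ∈ S := Finset.mem_coe.mp hz
    have hzx' : z ≠ x := fun h => hzx (by rw [h]; exact Set.mem_singleton _)
    have hne : shX t z ≠ shX t x := fun h => hzx' (hXS hz hx h)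
    have hd : shX t z - shX t x ≠ 0 := sub_ne_zero.mpr hne
    have hkey : (z.2 - s * (z.1 + t * z.2)) - (x.2 - s * (x.1 + t * x.2))
        = (shX t z - shX t x) * (slope t x z - s) := by
      unfold slope
      field_simp
      unfold shX
      ring
    have hpos : 0 < (shX t z - shX t x) * (slope t x z - s) := by
      rcases lt_or_gt_of_ne hne with h | h
      · have := hsA (slope t x z) (Finset.mem_image.mpr ⟨z, Finset.mem_filter.mpr ⟨hzS, h⟩, rfl⟩)
        apply mul_pos_of_neg_of_neg <;> linarith
      · have := hsB (slope t x z) (Finset.mem_image.mpr ⟨z, Finset.mem_filter.mpr ⟨hzS, h⟩, rfl⟩)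
        apply mul_pos <;> linarith
    show x.2 - s * (x.1 + t * x.2) < z.2 - s * (z.1 + t * z.2)
    linarith
  have h0 : x.2 - s * (x.1 + t * x.2) < x.2 - s * (x.1 + t * x.2) :=
    convexHull_min hsub hconv hmem
  exact lt_irrefl _ h0

/-- counting bound: the rightward edges with exactly `k` points above are at most
`(n - k - 1) (g - 1)` if every cup has at most `g` points. -/
theorem card_kEdges_le (hX : Set.InjOn (shX t) P) (hgp : GenPos P) (g : ℕ)
    (hg : ∀ S ⊆ P, IsCup t S → S.card ≤ g) :
    (kEdges t P k).card ≤ (P.card - (k + 1)) * (g - 1) := by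
  have hsub : kEdges t P k ⊆ (Finset.range (g - 1)).biUnion (lev t P k) := by
    intro e he
    obtain ⟨j, hj⟩ := exists_lev _ e he rfl
    obtain ⟨S, hSP, hcard, hcup, _⟩ := lev_cup hX j e hj
    have := hg S hSP hcup
    exact Finset.mem_biUnion.mpr ⟨j, Finset.mem_range.mpr (by omega), hj⟩
  calc (kEdges t P k).card ≤ ((Finset.range (g - 1)).biUnion (lev t P k)).card :=
        Finset.card_le_card hsub
    _ ≤ ∑ j ∈ Finset.range (g - 1), (lev t P k j).card := Finset.card_biUnion_le
    _ ≤ ∑ _j ∈ Finset.range (g - 1), (P.card - (k + 1)) :=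
        Finset.sum_le_sum (fun j _ => card_lev_le hX hgp j)
    _ = (P.card - (k + 1)) * (g - 1) := by
        rw [Finset.sum_const, Finset.card_range, smul_eq_mul, mul_comm]

end Vale.Agent.P065
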