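import Mathlib
import Vale.Agent.P065.Walk

/-!
Counting version of the discrete intermediate value lemma: on a slope-convex set of items the number
of down-crossings minus the number of up-crossings of the level `k` is determined by the values of
the walk at the two ends.
-/

namespace Vale.Agent.P065

open Finset

variable {α : Type*} [DecidableEq α]
variable {Z : Finset α} {sl : α → ℝ} {r : α → Prop} [DecidablePred r]

/-- one step of the walk -/
lemma walk_step (hinj : Set.InjOn sl Z) (k : ℕ) {z₀ : α} (hz₀ : z₀ ∈ Z) :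
    (if r z₀ ∧ walkAt Z sl r (sl z₀) = k then 1 else 0)
        + (if k + 1 ≤ walkAfter Z sl r (sl z₀) then 1 else 0)
      = (if ¬ r z₀ ∧ walkAt Z sl r (sl z₀) = k then 1 else 0)
        + (if k + 1 ≤ walkBefore Z sl r (sl z₀) then 1 else 0) := by
  by_cases hr : r z₀
  · obtain ⟨e1, e2⟩ := walk_right (r := r) hinj hz₀ hr
    rw [e1, e2]
    simp only [hr, true_and, not_true_eq_false, false_and, if_false]
    split_ifs <;> omega
  · obtain ⟨e1, e2⟩ := walk_left (r := r) hinj hz₀ hr
    rw [e1, e2]
    simp only [hr, false_and, not_false_eq_true, true_and, if_false]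
    split_ifs <;> omega

/-- telescoping over a slope-convex set of items -/
lemma walk_count (hinj : Set.InjOn sl Z) (k : ℕ) :
    ∀ (N : ℕ) (I : Finset α), I.card = N + 1 → I ⊆ Z →
      (∀ z₁ ∈ I, ∀ z₃ ∈ I, ∀ z₂ ∈ Z, sl z₁ < sl z₂ → sl z₂ < sl z₃ → z₂ ∈ I) →
      ∀ zmin ∈ I, (∀ z ∈ I, sl zmin ≤ sl z) → ∀ zmax ∈ I, (∀ z ∈ I, sl z ≤ sl zmax) →
      (I.filter (fun z => r z ∧ walkAt Z sl r (sl z) = k)).card
          + (if k + 1 ≤ walkAfter Z sl r (sl zmax) then 1 else 0)
        = (I.filter (fun z => ¬ r z ∧ walkAt Z sl r (sl z) = k)).card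
          + (if k + 1 ≤ walkBefore Z sl r (sl zmin) then 1 else 0) := by
  intro N
  induction N with
  | zero =>
    intro I hcard hIZ _ zmin hzmin _ zmax hzmax _
    obtain ⟨a, rfl⟩ := Finset.card_eq_one.mp hcard
    rw [Finset.mem_singleton] at hzmin hzmax
    rw [hzmin, hzmax]
    have hz : a ∈ Z := hIZ (Finset.mem_singleton_self _)
    have := walk_step (r := r) hinj k hz
    rw [Finset.filter_singleton, Finset.filter_singleton]
    split_ifs at this ⊢ <;> simp_all
  | succ N ih =>
    intro I hcard hIZ hconv zmin hzmin hmin zmax hzmax hmax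
    set I' := I.erase zmin with hI'
    have hcard' : I'.card = N + 1 := by
      rw [hI', Finset.card_erase_of_mem hzmin, hcard]; rfl
    have hne' : I'.Nonempty := by
      rw [← Finset.card_pos]; omega
    obtain ⟨zmin', hzmin', hmin'⟩ := Finset.exists_min_image I' sl hne'
    have hzmin'I : zmin' ∈ I := Finset.mem_of_mem_erase hzmin'
    have hne : zmin' ≠ zmin := Finset.ne_of_mem_erase hzmin'
    have hlt : sl zmin < sl zmin' := by
      refine lt_of_le_of_ne (hmin _ hzmin'I) ?_
      intro h
      exact hne (hinj (hIZ hzmin'I) (hIZ hzmin) h.symm)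
    have hzmax' : zmax ∈ I' := by
      refine Finset.mem_erase.mpr ⟨?_, hzmax⟩
      rintro rfl
      have := hmax _ hzmin'I
      linarith
    have hgap : ∀ z ∈ Z, ¬ (sl zmin < sl z ∧ sl z < sl zmin') := by
      rintro z hz ⟨h1, h2⟩
      have hzI : z ∈ I := hconv zmin hzmin zmin' hzmin'I z hz h1 h2
      have hzI' : z ∈ I' := by
        refine Finset.mem_erase.mpr ⟨?_, hzI⟩
        rintro rfl
        exact lt_irrefl _ h1
      have := hmin' z hzI'
      linarith
    have hglue := walk_gap Z sl r hlt hgap
    have hih := ih I' hcard' (fun z hz => hIZ (Finset.mem_of_mem_erase hz))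
      (by
        intro z₁ h₁ z₃ h₃ z₂ h₂ h12 h23
        refine Finset.mem_erase.mpr ⟨?_, hconv z₁ (Finset.mem_of_mem_erase h₁) z₃
          (Finset.mem_of_mem_erase h₃) z₂ h₂ h12 h23⟩
        rintro rfl
        have := hmin z₁ (Finset.mem_of_mem_erase h₁)
        linarith)
      zmin' hzmin' hmin' zmax hzmax' (fun z hz => hmax z (Finset.mem_of_mem_erase hz))
    have hstep := walk_step (r := r) hinj k (hIZ hzmin)
    have hsplit : ∀ (p : α → Prop) [DecidablePred p], (I.filter p).card
        = (if p zmin then 1 else 0) + (I'.filter p).card := by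
      intro p _
      have : I = insert zmin I' := (Finset.insert_erase hzmin).symm
      conv_lhs => rw [this]
      rw [Finset.filter_insert]
      split_ifs with hp
      · rw [Finset.card_insert_of_notMem]
        · omega
        · intro h
          exact (Finset.notMem_erase zmin I) (Finset.mem_of_mem_filter _ h)
      · omega
    rw [hsplit (fun z => r z ∧ walkAt Z sl r (sl z) = k),
      hsplit (fun z => ¬ r z ∧ walkAt Z sl r (sl z) = k)]
    rw [hglue] at hstep
    omega

end Vale.Agent.P065
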