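import Mathlib
import Vale.Agent.P065.Geom
import Vale.Agent.P065.WalkCount

/-!
General linear coordinates (rotation and scaling) and the walk around one vertex in them.
-/

namespace Vale.Agent.P065

open Finset

/-- linear coordinates obtained by a rotation and a scaling -/
structure Frame where
  a : ℝ
  b : ℝ
  pos : 0 < a ^ 2 + b ^ 2

namespace Frame

variable (F : Frame)

/-- first coordinate -/
def X (p : ℝ × ℝ) : ℝ := F.a * p.1 + F.b * p.2

/-- second coordinate -/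
def Y (p : ℝ × ℝ) : ℝ := - F.b * p.1 + F.a * p.2

/-- slope of the line through `v` and `z` -/
noncomputable def sl (v z : ℝ × ℝ) : ℝ := (F.Y z - F.Y v) / (F.X z - F.X v)

lemma det (p q r : ℝ × ℝ) :
    (F.X q - F.X p) * (F.Y r - F.Y p) - (F.Y q - F.Y p) * (F.X r - F.X p)
      = (F.a ^ 2 + F.b ^ 2) * det3 p q r := by
  unfold X Y det3; ring

lemma ext' {u v : ℝ × ℝ} (hX : F.X u = F.X v) (hY : F.Y u = F.Y v) : u = v := by
  have hN := F.pos
  unfold X at hX
  unfold Y at hY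
  have h1 : (F.a ^ 2 + F.b ^ 2) * (u.1 - v.1) = 0 := by
    have : (F.a ^ 2 + F.b ^ 2) * (u.1 - v.1)
        = F.a * ((F.a * u.1 + F.b * u.2) - (F.a * v.1 + F.b * v.2))
          - F.b * ((- F.b * u.1 + F.a * u.2) - (- F.b * v.1 + F.a * v.2)) := by ring
    rw [this, hX, hY]; ring
  have h2 : (F.a ^ 2 + F.b ^ 2) * (u.2 - v.2) = 0 := by
    have : (F.a ^ 2 + F.b ^ 2) * (u.2 - v.2)
        = F.b * ((F.a * u.1 + F.b * u.2) - (F.a * v.1 + F.b * v.2))
          + F.a * ((- F.b * u.1 + F.a * u.2) - (- F.b * v.1 + F.a * v.2)) := by ring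
    rw [this, hX, hY]; ring
  have h1' := (mul_eq_zero.mp h1).resolve_left (ne_of_gt hN)
  have h2' := (mul_eq_zero.mp h2).resolve_left (ne_of_gt hN)
  apply Prod.ext <;> linarith

lemma det_slope {v z y : ℝ × ℝ} (hz : F.X z ≠ F.X v) (hy : F.X y ≠ F.X v) :
    (F.a ^ 2 + F.b ^ 2) * det3 v z y
      = (F.X z - F.X v) * (F.X y - F.X v) * (F.sl v y - F.sl v z) := by
  have h1 : F.X z - F.X v ≠ 0 := sub_ne_zero.mpr hz
  have h2 : F.X y - F.X v ≠ 0 := sub_ne_zero.mpr hy
  rw [← F.det]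
  unfold sl
  field_simp

variable {F} {P : Finset (ℝ × ℝ)}

lemma sl_injOn (hgp : GenPos P) {q : ℝ × ℝ} (hq : q ∈ P)
    (hXq : ∀ y ∈ P, y ≠ q → F.X y ≠ F.X q) :
    Set.InjOn (F.sl q) (P.erase q : Finset (ℝ × ℝ)) := by
  intro z hz y hy hzy
  have hz' := Finset.mem_erase.mp (Finset.mem_coe.mp hz)
  have hy' := Finset.mem_erase.mp (Finset.mem_coe.mp hy)
  by_contra hne
  have := F.det_slope (hXq z hz'.2 hz'.1) (hXq y hy'.2 hy'.1)
  rw [hzy, sub_self, mul_zero] at this
  have h0 := (mul_eq_zero.mp this).resolve_left (ne_of_gt F.pos)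
  exact hgp q hq z hz'.2 y hy'.2 (Ne.symm hz'.1) (Ne.symm hy'.1) hne h0

/-- the walk around `q` -/
noncomputable def walk (F : Frame) (P : Finset (ℝ × ℝ)) (q : ℝ × ℝ) (s : ℝ) : ℕ :=
  walkAt (P.erase q) (F.sl q) (fun z => F.X q < F.X z) s

lemma count_eq_aux {q z : ℝ × ℝ}
    (hXq : ∀ y ∈ P, y ≠ q → F.X y ≠ F.X q)
    (f : ℝ × ℝ → ℝ) (hf0 : f q = 0)
    (hf : ∀ y ∈ P, y ≠ q → ∃ c : ℝ, 0 < c ∧
      f y = c * ((F.X y - F.X q) * (F.sl q y - F.sl q z))) :
    (P.filter (fun y => 0 < f y)).card = F.walk P q (F.sl q z) := by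
  unfold walk walkAt
  rw [← Finset.card_union_of_disjoint]
  · congr 1
    ext y
    simp only [mem_filter, mem_union, mem_erase]
    constructor
    · rintro ⟨hy, hpos⟩
      have hyv : y ≠ q := by
        rintro rfl
        rw [hf0] at hpos
        exact lt_irrefl _ hpos
      obtain ⟨c, hc, hfy⟩ := hf y hy hyv
      rw [hfy] at hpos
      have hpos' : 0 < (F.X y - F.X q) * (F.sl q y - F.sl q z) :=
        (mul_pos_iff_of_pos_left hc).mp hpos
      have hne : F.X y ≠ F.X q := hXq y hy hyv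
      rcases lt_or_gt_of_ne hne with h | h
      · right
        refine ⟨⟨hyv, hy⟩, not_lt.mpr (le_of_lt h), ?_⟩
        have : F.X y - F.X q < 0 := by linarith
        have := (neg_of_mul_pos_right hpos' (le_of_lt this))
        linarith
      · left
        refine ⟨⟨hyv, hy⟩, h, ?_⟩
        have : 0 < F.X y - F.X q := by linarith
        have := (mul_pos_iff_of_pos_left this).mp hpos'
        linarith
    · rintro (⟨⟨hyv, hy⟩, h, hs⟩ | ⟨⟨hyv, hy⟩, h, hs⟩)
      · refine ⟨hy, ?_⟩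
        obtain ⟨c, hc, hfy⟩ := hf y hy hyv
        rw [hfy]
        apply mul_pos hc
        apply mul_pos <;> linarith
      · refine ⟨hy, ?_⟩
        obtain ⟨c, hc, hfy⟩ := hf y hy hyv
        rw [hfy]
        apply mul_pos hc
        have hne : F.X y ≠ F.X q := hXq y hy hyv
        have h' : F.X y < F.X q := lt_of_le_of_ne (not_lt.mp h) hne
        apply mul_pos_of_neg_of_neg <;> linarith
  · rw [Finset.disjoint_filter]
    rintro y _ ⟨h1, _⟩ ⟨h2, _⟩
    exact h2 h1

lemma upCount_right {q w : ℝ × ℝ} (hXq : ∀ y ∈ P, y ≠ q → F.X y ≠ F.X q)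
    (hqw : F.X q < F.X w) : upCount P q w = F.walk P q (F.sl q w) := by
  unfold upCount
  apply count_eq_aux hXq (fun y => det3 q w y) (det3_self_left q w)
  intro y hy hyq
  refine ⟨(F.X w - F.X q) / (F.a ^ 2 + F.b ^ 2), div_pos (by linarith) F.pos, ?_⟩
  have h := F.det_slope (ne_of_gt hqw) (hXq y hy hyq)
  have hN := ne_of_gt F.pos
  show det3 q w y = _
  field_simp
  linarith

lemma upCount_left {q u : ℝ × ℝ} (hXq : ∀ y ∈ P, y ≠ q → F.X y ≠ F.X q)
    (huq : F.X u < F.X q) : upCount P u q = F.walk P q (F.sl q u) := by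
  unfold upCount
  apply count_eq_aux hXq (fun y => det3 u q y)
  · show det3 u q q = 0
    unfold det3; ring
  intro y hy hyq
  refine ⟨(F.X q - F.X u) / (F.a ^ 2 + F.b ^ 2), div_pos (by linarith) F.pos, ?_⟩
  have h := F.det_slope (ne_of_lt huq) (hXq y hy hyq)
  have hN := ne_of_gt F.pos
  show det3 u q y = _
  rw [det3_swap]
  field_simp
  linarith

end Frame

end Vale.Agent.P065
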