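import Mathlib
import Vale.Agent.P065.Frame

/-!
Rays from an outside point hitting a convex set; existence of adapted coordinates.
-/

namespace Vale.Agent.P065

open Finset

/-- the open ray from `q` through `y` meets `K` -/
def fwd (K : Set (ℝ × ℝ)) (q y : ℝ × ℝ) : Prop := ∃ c : ℝ, 0 < c ∧ q + c • (y - q) ∈ K

/-- the open ray from `q` away from `y` meets `K` -/
def bwd (K : Set (ℝ × ℝ)) (q y : ℝ × ℝ) : Prop := ∃ c : ℝ, c < 0 ∧ q + c • (y - q) ∈ K

lemma Frame.X_line (F : Frame) (q y : ℝ × ℝ) (c : ℝ) :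
    F.X (q + c • (y - q)) = F.X q + c * (F.X y - F.X q) := by
  unfold Frame.X
  simp only [Prod.fst_add, Prod.snd_add, Prod.smul_fst, Prod.smul_snd, Prod.fst_sub, Prod.snd_sub,
    smul_eq_mul]
  ring

lemma Frame.Y_line (F : Frame) (q y : ℝ × ℝ) (c : ℝ) :
    F.Y (q + c • (y - q)) = F.Y q + c * (F.Y y - F.Y q) := by
  unfold Frame.Y
  simp only [Prod.fst_add, Prod.snd_add, Prod.smul_fst, Prod.smul_snd, Prod.fst_sub, Prod.snd_sub,
    smul_eq_mul]
  ring

lemma Frame.X_comb (F : Frame) (u v : ℝ × ℝ) (a b : ℝ) :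
    F.X (a • u + b • v) = a * F.X u + b * F.X v := by
  unfold Frame.X
  simp only [Prod.fst_add, Prod.snd_add, Prod.smul_fst, Prod.smul_snd, smul_eq_mul]
  ring

lemma Frame.Y_comb (F : Frame) (u v : ℝ × ℝ) (a b : ℝ) :
    F.Y (a • u + b • v) = a * F.Y u + b * F.Y v := by
  unfold Frame.Y
  simp only [Prod.fst_add, Prod.snd_add, Prod.smul_fst, Prod.smul_snd, smul_eq_mul]
  ring

lemma exists_eps {ι : Type*} (S : Finset ι) (f g : ι → ℝ) :
    ∃ ε₀ : ℝ, 0 < ε₀ ∧ ∀ ε : ℝ, 0 < ε → ε < ε₀ → ∀ i ∈ S,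
      (0 < f i → 0 < f i + ε * g i) ∧ (f i < 0 → f i + ε * g i < 0) := by
  classical
  induction S using Finset.induction_on with
  | empty => exact ⟨1, one_pos, fun _ _ _ i hi => absurd hi (Finset.notMem_empty i)⟩
  | insert j S _ ih =>
    obtain ⟨ε₁, hε₁, h₁⟩ := ih
    have hden : 0 < |g j| + 1 := by positivity
    refine ⟨min ε₁ ((|f j| + 1) / (|g j| + 1) * (|f j| / (|f j| + 1)) + (if f j = 0 then 1 else 0)),
      ?_, ?_⟩
    · apply lt_min hε₁
      by_cases h0 : f j = 0
      · simp [h0]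
      · have : 0 < |f j| := abs_pos.mpr h0
        simp only [h0, if_false, add_zero]
        positivity
    · intro ε hε hlt i hi
      rcases Finset.mem_insert.mp hi with rfl | hi'
      · have hlt2 := lt_of_lt_of_le hlt (min_le_right _ _)
        have habs : -|g i| ≤ g i ∧ g i ≤ |g i| := ⟨neg_abs_le _, le_abs_self _⟩
        constructor
        · intro hpos
          have h0 : f i ≠ 0 := ne_of_gt hpos
          simp only [h0, if_false, add_zero, abs_of_pos hpos] at hlt2
          have e : (f i + 1) / (|g i| + 1) * (f i / (f i + 1)) = f i / (|g i| + 1) := by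
            field_simp
          rw [e, lt_div_iff₀ hden] at hlt2
          nlinarith
        · intro hneg
          have h0 : f i ≠ 0 := ne_of_lt hneg
          simp only [h0, if_false, add_zero, abs_of_neg hneg] at hlt2
          have hp : 0 < - f i + 1 := by linarith
          have e : (- f i + 1) / (|g i| + 1) * (- f i / (- f i + 1)) = - f i / (|g i| + 1) := by
            field_simp
          rw [e, lt_div_iff₀ hden] at hlt2
          nlinarith
      · exact h₁ ε hε (lt_of_lt_of_le hlt (min_le_left _ _)) i hi'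

/-- a linear functional which is positive in the directions of the rays that hit `K` -/
lemma exists_base {K : Set (ℝ × ℝ)} (hK : Convex ℝ K) {q : ℝ × ℝ} (hq : q ∉ K)
    (P : Finset (ℝ × ℝ)) :
    ∃ a b : ℝ, 0 < a ^ 2 + b ^ 2 ∧
      (∀ y ∈ P, fwd K q y → 0 < a * (y.1 - q.1) + b * (y.2 - q.2)) ∧
      (∀ y ∈ P, bwd K q y → a * (y.1 - q.1) + b * (y.2 - q.2) < 0) := by
  classical
  -- witnesses
  let wit : ℝ × ℝ → ℝ × ℝ := fun y =>
    if h : fwd K q y then q + (Classical.choose h) • (y - q)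
    else if h' : bwd K q y then q + (Classical.choose h') • (y - q) else q
  set W : Finset (ℝ × ℝ) := (P.filter (fun y => fwd K q y ∨ bwd K q y)).image wit with hW
  have hWK : (W : Set (ℝ × ℝ)) ⊆ K := by
    intro b hb
    obtain ⟨y, hy, rfl⟩ := Finset.mem_image.mp (Finset.mem_coe.mp hb)
    have hy2 := (Finset.mem_filter.mp hy).2
    by_cases h : fwd K q y
    · simp only [wit, h, dif_pos]
      exact (Classical.choose_spec h).2
    · have h' : bwd K q y := hy2.resolve_left h
      simp only [wit, h, h', dif_pos, dif_neg, not_false_eq_true]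
      exact (Classical.choose_spec h').2
  have hqW : q ∉ convexHull ℝ (W : Set (ℝ × ℝ)) := fun h => hq (convexHull_min hWK hK h)
  have hcl : IsClosed (convexHull ℝ (W : Set (ℝ × ℝ))) :=
    (W.finite_toSet.isCompact_convexHull ℝ).isClosed
  obtain ⟨f, u, hfq, hfb⟩ := geometric_hahn_banach_point_closed (convex_convexHull ℝ _) hcl hqW
  have hf : ∀ z : ℝ × ℝ, f z = f (1, 0) * z.1 + f (0, 1) * z.2 := by
    intro z
    have : z = z.1 • ((1 : ℝ), (0 : ℝ)) + z.2 • ((0 : ℝ), (1 : ℝ)) := by
      apply Prod.ext <;> simp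
    conv_lhs => rw [this]
    rw [map_add, map_smul, map_smul]
    simp only [smul_eq_mul]
    ring
  have hline : ∀ (y : ℝ × ℝ) (c : ℝ), q + c • (y - q) ∈ W →
      0 < c * (f (1, 0) * (y.1 - q.1) + f (0, 1) * (y.2 - q.2)) := by
    intro y c hmem
    have h1 := hfb _ (subset_convexHull ℝ _ (Finset.mem_coe.mpr hmem))
    have h2 : f (q + c • (y - q)) = f q + c * (f (1, 0) * (y.1 - q.1) + f (0, 1) * (y.2 - q.2)) := by
      rw [map_add, map_smul, hf (y - q)]
      simp only [Prod.fst_sub, Prod.snd_sub, smul_eq_mul]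
    rw [h2] at h1
    linarith
  have hfwd : ∀ y ∈ P, fwd K q y → 0 < f (1, 0) * (y.1 - q.1) + f (0, 1) * (y.2 - q.2) := by
    intro y hy h
    have hmem : q + (Classical.choose h) • (y - q) ∈ W := by
      refine Finset.mem_image.mpr ⟨y, Finset.mem_filter.mpr ⟨hy, Or.inl h⟩, ?_⟩
      simp only [wit, h, dif_pos]
    have h1 := hline y _ hmem
    exact (mul_pos_iff_of_pos_left (Classical.choose_spec h).1).mp h1
  have hbwd : ∀ y ∈ P, bwd K q y → f (1, 0) * (y.1 - q.1) + f (0, 1) * (y.2 - q.2) < 0 := by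
    intro y hy h'
    by_cases h : fwd K q y
    · -- both directions hit `K`: impossible since `q ∉ K`
      exfalso
      obtain ⟨c₁, hc₁, hm₁⟩ := h
      obtain ⟨c₂, hc₂, hm₂⟩ := h'
      apply hq
      have hd : 0 < c₁ - c₂ := by linarith
      have := hK hm₁ hm₂ (a := - c₂ / (c₁ - c₂)) (b := c₁ / (c₁ - c₂))
        (div_nonneg (by linarith) hd.le) (div_nonneg hc₁.le hd.le) (by field_simp; ring)
      convert this using 1
      apply Prod.ext
      · simp only [Prod.fst_add, Prod.smul_fst, Prod.fst_sub, smul_eq_mul]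
        field_simp
        ring
      · simp only [Prod.snd_add, Prod.smul_snd, Prod.snd_sub, smul_eq_mul]
        field_simp
        ring
    · have hmem : q + (Classical.choose h') • (y - q) ∈ W := by
        refine Finset.mem_image.mpr ⟨y, Finset.mem_filter.mpr ⟨hy, Or.inr h'⟩, ?_⟩
        simp only [wit, h, h', dif_pos, dif_neg, not_false_eq_true]
      have h1 := hline y _ hmem
      have hc := (Classical.choose_spec h').1
      by_contra hcon
      have := mul_nonpos_of_nonpos_of_nonneg hc.le (not_lt.mp hcon)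
      linarith
  by_cases h0 : 0 < f (1, 0) ^ 2 + f (0, 1) ^ 2
  · exact ⟨f (1, 0), f (0, 1), h0, hfwd, hbwd⟩
  · have ha : f (1, 0) = 0 := by nlinarith [sq_nonneg (f (1, 0)), sq_nonneg (f (0, 1))]
    have hb : f (0, 1) = 0 := by nlinarith [sq_nonneg (f (1, 0)), sq_nonneg (f (0, 1))]
    refine ⟨1, 0, by norm_num, ?_, ?_⟩
    · intro y hy h
      have := hfwd y hy h
      rw [ha, hb] at this
      simp at this
    · intro y hy h
      have := hbwd y hy h
      rw [ha, hb] at this
      simp at this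

/-- adapted coordinates at an outside point -/
lemma exists_frame {K : Set (ℝ × ℝ)} (hK : Convex ℝ K) {q : ℝ × ℝ} (hq : q ∉ K)
    (P : Finset (ℝ × ℝ)) :
    ∃ F : Frame, (∀ y ∈ P, y ≠ q → F.X y ≠ F.X q) ∧
      (∀ y ∈ P, fwd K q y → F.X q < F.X y) ∧ (∀ y ∈ P, bwd K q y → F.X y < F.X q) := by
  classical
  obtain ⟨a, b, hN, hfwd, hbwd⟩ := exists_base hK hq P
  set f : ℝ × ℝ → ℝ := fun y => a * (y.1 - q.1) + b * (y.2 - q.2) with hf
  set g : ℝ × ℝ → ℝ := fun y => - b * (y.1 - q.1) + a * (y.2 - q.2) with hg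
  obtain ⟨ε₀, hε₀, heps⟩ := exists_eps P f g
  obtain ⟨ε, hεmem, hεbad⟩ :=
    (Set.Ioo_infinite hε₀).exists_notMem_finset (P.image (fun y => - f y / g y))
  have hN' : 0 < (a - ε * b) ^ 2 + (b + ε * a) ^ 2 := by
    have : (a - ε * b) ^ 2 + (b + ε * a) ^ 2 = (a ^ 2 + b ^ 2) * (1 + ε ^ 2) := by ring
    rw [this]; positivity
  have hXdiff : ∀ y : ℝ × ℝ, (⟨a - ε * b, b + ε * a, hN'⟩ : Frame).X y
      - (⟨a - ε * b, b + ε * a, hN'⟩ : Frame).X q = f y + ε * g y := by
    intro y
    simp only [Frame.X, hf, hg]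
    ring
  refine ⟨⟨a - ε * b, b + ε * a, hN'⟩, ?_, ?_, ?_⟩
  · intro y hy hyq heq
    have h0 : f y + ε * g y = 0 := by rw [← hXdiff y, heq, sub_self]
    by_cases hg0 : g y = 0
    · rw [hg0, mul_zero, add_zero] at h0
      apply hyq
      have e1 : (a ^ 2 + b ^ 2) * (y.1 - q.1) = a * f y - b * g y := by simp only [hf, hg]; ring
      have e2 : (a ^ 2 + b ^ 2) * (y.2 - q.2) = b * f y + a * g y := by simp only [hf, hg]; ring
      rw [h0, hg0] at e1 e2
      simp only [mul_zero, sub_zero, add_zero] at e1 e2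
      have h1 := (mul_eq_zero.mp e1).resolve_left (ne_of_gt hN)
      have h2 := (mul_eq_zero.mp e2).resolve_left (ne_of_gt hN)
      apply Prod.ext <;> linarith
    · apply hεbad
      refine Finset.mem_image.mpr ⟨y, hy, ?_⟩
      field_simp
      linarith
  · intro y hy h
    have := (heps ε hεmem.1 hεmem.2 y hy).1 (hfwd y hy h)
    have h2 := hXdiff y
    linarith
  · intro y hy h
    have := (heps ε hεmem.1 hεmem.2 y hy).2 (hbwd y hy h)
    have h2 := hXdiff y
    linarith

end Vale.Agent.P065
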