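import Mathlib
import Vale.Agent.P065.Hit

/-!
The local lemma at an outside point `q` of a convex set `K`.
-/

namespace Vale.Agent.P065

open Finset

variable {K : Set (ℝ × ℝ)} {P : Finset (ℝ × ℝ)} {q : ℝ × ℝ} {F : Frame}

/-- a point whose line through `q` hits `K` yields a witness in `K` to the right of `q` -/
lemma hit_witness {z : ℝ × ℝ} (hzq : F.X z ≠ F.X q)
    (h1 : fwd K q z → F.X q < F.X z) (h2 : bwd K q z → F.X z < F.X q)
    (h : fwd K q z ∨ bwd K q z) :
    ∃ b ∈ K, 0 < F.X b - F.X q ∧ F.Y b - F.Y q = F.sl q z * (F.X b - F.X q) := by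
  have hd : F.X z - F.X q ≠ 0 := sub_ne_zero.mpr hzq
  rcases h with h | h
  · have hlt := h1 h
    obtain ⟨c, hc, hm⟩ := h
    refine ⟨_, hm, ?_, ?_⟩
    · rw [F.X_line]
      have : 0 < c * (F.X z - F.X q) := mul_pos hc (by linarith)
      linarith
    · rw [F.X_line, F.Y_line]
      unfold Frame.sl
      field_simp
      ring
  · have hlt := h2 h
    obtain ⟨c, hc, hm⟩ := h
    refine ⟨_, hm, ?_, ?_⟩
    · rw [F.X_line]
      have : 0 < c * (F.X z - F.X q) := mul_pos_of_neg_of_neg hc (by linarith)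
      linarith
    · rw [F.X_line, F.Y_line]
      unfold Frame.sl
      field_simp
      ring

/-- the set of points whose line through `q` hits `K` is convex in the slope order -/
lemma hit_between (hK : Convex ℝ K) {z₂ : ℝ × ℝ} {s₁ s₃ : ℝ} {b₁ b₃ : ℝ × ℝ}
    (hb₁ : b₁ ∈ K) (hb₃ : b₃ ∈ K) (hx₁ : 0 < F.X b₁ - F.X q) (hx₃ : 0 < F.X b₃ - F.X q)
    (hy₁ : F.Y b₁ - F.Y q = s₁ * (F.X b₁ - F.X q)) (hy₃ : F.Y b₃ - F.Y q = s₃ * (F.X b₃ - F.X q))
    (hzq : F.X z₂ ≠ F.X q) (h12 : s₁ < F.sl q z₂) (h23 : F.sl q z₂ < s₃) :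
    fwd K q z₂ ∨ bwd K q z₂ := by
  set x₁ := F.X b₁ - F.X q with hx₁def
  set x₃ := F.X b₃ - F.X q with hx₃def
  set s₂ := F.sl q z₂ with hs₂
  have hd : F.X z₂ - F.X q ≠ 0 := sub_ne_zero.mpr hzq
  have hD : 0 < x₁ * (s₂ - s₁) + x₃ * (s₃ - s₂) := by
    have e1 : 0 < x₁ * (s₂ - s₁) := mul_pos hx₁ (by linarith)
    have e2 : 0 < x₃ * (s₃ - s₂) := mul_pos hx₃ (by linarith)
    linarith
  set D := x₁ * (s₂ - s₁) + x₃ * (s₃ - s₂) with hDdef
  have hmem : (x₃ * (s₃ - s₂) / D) • b₁ + (x₁ * (s₂ - s₁) / D) • b₃ ∈ K := by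
    apply hK hb₁ hb₃
    · exact div_nonneg (mul_nonneg hx₃.le (by linarith)) hD.le
    · exact div_nonneg (mul_nonneg hx₁.le (by linarith)) hD.le
    · rw [← add_div, add_comm, ← hDdef, div_self (ne_of_gt hD)]
  set b := (x₃ * (s₃ - s₂) / D) • b₁ + (x₁ * (s₂ - s₁) / D) • b₃ with hb
  set μ := x₁ * x₃ * (s₃ - s₁) / D with hμ
  have hμpos : 0 < μ := by
    apply div_pos _ hD
    apply mul_pos (mul_pos hx₁ hx₃); linarith
  have hXb : F.X b = F.X q + μ := by
    rw [hb, F.X_comb]
    have e1 : F.X b₁ = F.X q + x₁ := by rw [hx₁def]; ring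
    have e3 : F.X b₃ = F.X q + x₃ := by rw [hx₃def]; ring
    rw [e1, e3, hμ]
    field_simp
    rw [hDdef]
    ring
  have hYb : F.Y b = F.Y q + s₂ * μ := by
    rw [hb, F.Y_comb]
    have e1 : F.Y b₁ = F.Y q + s₁ * x₁ := by linarith
    have e3 : F.Y b₃ = F.Y q + s₃ * x₃ := by linarith
    rw [e1, e3, hμ]
    field_simp
    rw [hDdef]
    ring
  have hline : q + (μ / (F.X z₂ - F.X q)) • (z₂ - q) = b := by
    apply F.ext'
    · rw [F.X_line, hXb]
      field_simp
    · rw [F.Y_line, hYb, hs₂]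
      unfold Frame.sl
      field_simp
  rcases lt_or_gt_of_ne hzq with h | h
  · right
    refine ⟨μ / (F.X z₂ - F.X q), div_neg_of_pos_of_neg hμpos (by linarith), ?_⟩
    rw [hline]; exact hmem
  · left
    refine ⟨μ / (F.X z₂ - F.X q), div_pos hμpos (by linarith), ?_⟩
    rw [hline]; exact hmem

open Classical in
/-- **Local lemma.**  Among the directed edges with exactly `k` points on their left that lie on a
line through `q` hitting `K` and point towards `K`, those starting at `q` are at most one more than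
those ending at `q`. -/
lemma local_count (hgp : GenPos P) (hK : Convex ℝ K) (hq : q ∈ P) (hqK : q ∉ K) (k : ℕ) :
    (P.filter (fun y => y ≠ q ∧ upCount P q y = k ∧ fwd K q y)).card
        ≤ (P.filter (fun x => x ≠ q ∧ upCount P x q = k ∧ bwd K q x)).card + 1 ∧
    (k + 1 ≤ (P.filter (fun z => z ∈ K)).card → P.card ≤ (P.filter (fun z => z ∈ K)).card + k + 1 →
      (P.filter (fun y => y ≠ q ∧ upCount P q y = k ∧ fwd K q y)).card
        = (P.filter (fun x => x ≠ q ∧ upCount P x q = k ∧ bwd K q x)).card + 1) := by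
  obtain ⟨F, hXq, hF, hB⟩ := exists_frame hK hqK P
  set I := P.filter (fun y => y ≠ q ∧ (fwd K q y ∨ bwd K q y)) with hI
  have hinj := Frame.sl_injOn (F := F) hgp hq hXq
  have hIZ : I ⊆ P.erase q := by
    intro y hy
    obtain ⟨h1, h2, _⟩ := Finset.mem_filter.mp hy
    exact Finset.mem_erase.mpr ⟨h2, h1⟩
  have hR : P.filter (fun y => y ≠ q ∧ upCount P q y = k ∧ fwd K q y)
      = I.filter (fun z => F.X q < F.X z ∧
          walkAt (P.erase q) (F.sl q) (fun z => F.X q < F.X z) (F.sl q z) = k) := by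
    ext y
    simp only [hI, Finset.mem_filter]
    constructor
    · rintro ⟨hy, hyq, hup, hf⟩
      have hlt := hF y hy hf
      refine ⟨⟨hy, hyq, Or.inl hf⟩, hlt, ?_⟩
      rw [Frame.upCount_right hXq hlt] at hup
      exact hup
    · rintro ⟨⟨hy, hyq, hfb⟩, hlt, hw⟩
      refine ⟨hy, hyq, ?_, ?_⟩
      · rw [Frame.upCount_right hXq hlt]; exact hw
      · rcases hfb with h | h
        · exact h
        · have := hB y hy h; linarith
  have hBset : P.filter (fun x => x ≠ q ∧ upCount P x q = k ∧ bwd K q x)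
      = I.filter (fun z => ¬ F.X q < F.X z ∧
          walkAt (P.erase q) (F.sl q) (fun z => F.X q < F.X z) (F.sl q z) = k) := by
    ext y
    simp only [hI, Finset.mem_filter]
    constructor
    · rintro ⟨hy, hyq, hup, hb⟩
      have hlt := hB y hy hb
      refine ⟨⟨hy, hyq, Or.inr hb⟩, not_lt.mpr hlt.le, ?_⟩
      rw [Frame.upCount_left hXq hlt] at hup
      exact hup
    · rintro ⟨⟨hy, hyq, hfb⟩, hnlt, hw⟩
      have hlt : F.X y < F.X q := lt_of_le_of_ne (not_lt.mp hnlt) (hXq y hy hyq)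
      refine ⟨hy, hyq, ?_, ?_⟩
      · rw [Frame.upCount_left hXq hlt]; exact hw
      · rcases hfb with h | h
        · have := hF y hy h; linarith
        · exact h
  rw [hR, hBset]
  have hKI : ∀ z ∈ P, z ∈ K → z ∈ I ∧ F.X q < F.X z := by
    intro z hz hzK
    have hzq : z ≠ q := fun h => hqK (h ▸ hzK)
    have hf : fwd K q z := ⟨1, one_pos, by simpa using hzK⟩
    exact ⟨Finset.mem_filter.mpr ⟨hz, hzq, Or.inl hf⟩, hF z hz hf⟩
  by_cases hne : I.Nonempty
  · obtain ⟨zmin, hzmin, hmin⟩ := Finset.exists_min_image I (F.sl q) hne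
    obtain ⟨zmax, hzmax, hmax⟩ := Finset.exists_max_image I (F.sl q) hne
    have hwit : ∀ z ∈ I, ∃ b ∈ K, 0 < F.X b - F.X q ∧
        F.Y b - F.Y q = F.sl q z * (F.X b - F.X q) := by
      intro z hz
      obtain ⟨h1, h2, h3⟩ := Finset.mem_filter.mp hz
      exact hit_witness (hXq z h1 h2) (hF z h1) (hB z h1) h3
    have hconv : ∀ z₁ ∈ I, ∀ z₃ ∈ I, ∀ z₂ ∈ P.erase q, F.sl q z₁ < F.sl q z₂ → F.sl q z₂ < F.sl q z₃ →
        z₂ ∈ I := by
      intro z₁ h₁ z₃ h₃ z₂ h₂ h12 h23
      obtain ⟨b₁, hb₁, hx₁, hy₁⟩ := hwit z₁ h₁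
      obtain ⟨b₃, hb₃, hx₃, hy₃⟩ := hwit z₃ h₃
      obtain ⟨g1, g2⟩ := Finset.mem_erase.mp h₂
      exact Finset.mem_filter.mpr ⟨g2, g1,
        hit_between hK hb₁ hb₃ hx₁ hx₃ hy₁ hy₃ (hXq z₂ g2 g1) h12 h23⟩
    obtain ⟨N, hN⟩ : ∃ N, I.card = N + 1 := ⟨I.card - 1, by
      have := Finset.card_pos.mpr hne; omega⟩
    have hcount := walk_count (r := fun z => F.X q < F.X z) hinj k N I hN hIZ hconv
      zmin hzmin hmin zmax hzmax hmax
    constructor
    · split_ifs at hcount <;> omega
    · intro ha1 ha2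
      -- the walk is high before the wedge
      have hbefore : k + 1 ≤ walkBefore (P.erase q) (F.sl q) (fun z => F.X q < F.X z) (F.sl q zmin) := by
        refine le_trans ha1 ?_
        unfold walkBefore
        refine le_trans (Finset.card_le_card ?_) (Nat.le_add_right _ _)
        intro z hz
        obtain ⟨h1, h2⟩ := Finset.mem_filter.mp hz
        obtain ⟨g1, g2⟩ := hKI z h1 h2
        exact Finset.mem_filter.mpr ⟨hIZ g1, g2, hmin z g1⟩
      -- and low after it
      have hafter : ¬ k + 1 ≤ walkAfter (P.erase q) (F.sl q) (fun z => F.X q < F.X z) (F.sl q zmax) := by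
        unfold walkAfter
        have hdisj : Disjoint ((P.erase q).filter (fun z => F.X q < F.X z ∧ F.sl q zmax < F.sl q z))
            ((P.erase q).filter (fun z => ¬ F.X q < F.X z ∧ F.sl q z ≤ F.sl q zmax)) := by
          rw [Finset.disjoint_filter]
          rintro z _ ⟨h1, _⟩ ⟨h2, _⟩
          exact h2 h1
        rw [← Finset.card_union_of_disjoint hdisj]
        have hdisj2 : Disjoint ((P.erase q).filter (fun z => F.X q < F.X z ∧ F.sl q zmax < F.sl q z) ∪
            (P.erase q).filter (fun z => ¬ F.X q < F.X z ∧ F.sl q z ≤ F.sl q zmax))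
            (P.filter (fun z => z ∈ K)) := by
          rw [Finset.disjoint_left]
          intro z hz hzK
          obtain ⟨h1, h2⟩ := Finset.mem_filter.mp hzK
          obtain ⟨g1, g2⟩ := hKI z h1 h2
          rcases Finset.mem_union.mp hz with h | h
          · have := (Finset.mem_filter.mp h).2.2
            have := hmax z g1
            linarith
          · exact (Finset.mem_filter.mp h).2.1 g2
        have hsub : ((P.erase q).filter (fun z => F.X q < F.X z ∧ F.sl q zmax < F.sl q z) ∪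
            (P.erase q).filter (fun z => ¬ F.X q < F.X z ∧ F.sl q z ≤ F.sl q zmax)) ∪
            (P.filter (fun z => z ∈ K)) ⊆ P.erase q := by
          intro z hz
          rcases Finset.mem_union.mp hz with h | h
          · rcases Finset.mem_union.mp h with h' | h'
            · exact Finset.mem_of_mem_filter _ h'
            · exact Finset.mem_of_mem_filter _ h'
          · obtain ⟨h1, h2⟩ := Finset.mem_filter.mp h
            exact hIZ (hKI z h1 h2).1
        have hc := Finset.card_le_card hsub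
        rw [Finset.card_union_of_disjoint hdisj2, Finset.card_erase_of_mem hq] at hc
        omega
      rw [if_pos hbefore, if_neg hafter] at hcount
      omega
  · rw [Finset.not_nonempty_iff_eq_empty] at hne
    rw [hne]
    simp only [Finset.filter_empty, Finset.card_empty, zero_add, zero_le, true_and]
    intro ha1 _
    exfalso
    have hpos : 0 < (P.filter (fun z => z ∈ K)).card := by omega
    obtain ⟨z, hz⟩ := Finset.card_pos.mp hpos
    obtain ⟨h1, h2⟩ := Finset.mem_filter.mp hz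
    have := (hKI z h1 h2).1
    rw [hne] at this
    exact absurd this (Finset.notMem_empty z)

end Vale.Agent.P065
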