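import Mathlib
import Vale.Agent.P065.Local

/-!
The convex Lovasz lemma for directed edges with exactly `k` points on their left.
-/

namespace Vale.Agent.P065

open Finset

open Classical in
/-- ordered pairs `(q, y)` with `q` outside `K`, `y` in `K` and exactly `k` points left of `q → y` -/
noncomputable def inPairs (P : Finset (ℝ × ℝ)) (K : Set (ℝ × ℝ)) (k : ℕ) :
    Finset ((ℝ × ℝ) × (ℝ × ℝ)) :=
  ((P.filter (fun z => z ∉ K)) ×ˢ P).filter (fun e => e.2 ∈ K ∧ upCount P e.1 e.2 = k)

open Classical in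
/-- ordered pairs `(q, y)` of distinct points outside `K` whose open segment meets `K`, with exactly
`k` points left of `q → y` -/
noncomputable def thruPairs (P : Finset (ℝ × ℝ)) (K : Set (ℝ × ℝ)) (k : ℕ) :
    Finset ((ℝ × ℝ) × (ℝ × ℝ)) :=
  ((P.filter (fun z => z ∉ K)) ×ˢ P).filter (fun e => e.2 ∉ K ∧ e.2 ≠ e.1 ∧ upCount P e.1 e.2 = k ∧
    ∃ c : ℝ, 0 < c ∧ c < 1 ∧ e.1 + c • (e.2 - e.1) ∈ K)

lemma card_filter_product {α β : Type*} (s : Finset α) (t : Finset β) (p : α × β → Prop)
    [DecidablePred p] :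
    ((s ×ˢ t).filter p).card = ∑ a ∈ s, (t.filter (fun b => p (a, b))).card := by
  rw [Finset.card_filter, Finset.sum_product]
  apply Finset.sum_congr rfl
  intro a _
  rw [Finset.card_filter]

/-- a point between two points of a convex set on a line -/
lemma mem_of_between {K : Set (ℝ × ℝ)} (hK : Convex ℝ K) {q v : ℝ × ℝ} {c₁ c₂ c : ℝ}
    (h₁ : q + c₁ • v ∈ K) (h₂ : q + c₂ • v ∈ K) (h1 : c₁ < c) (h2 : c < c₂) : q + c • v ∈ K := by
  have hd : 0 < c₂ - c₁ := by linarith
  have := hK h₁ h₂ (a := (c₂ - c) / (c₂ - c₁)) (b := (c - c₁) / (c₂ - c₁))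
    (div_nonneg (by linarith) hd.le) (div_nonneg (by linarith) hd.le) (by field_simp; ring)
  convert this using 1
  apply Prod.ext
  · simp only [Prod.fst_add, Prod.smul_fst, smul_eq_mul]
    field_simp
    ring
  · simp only [Prod.snd_add, Prod.smul_snd, smul_eq_mul]
    field_simp
    ring

variable {K : Set (ℝ × ℝ)} {P : Finset (ℝ × ℝ)}

open Classical in
/-- **Convex Lovasz lemma, directed form.** -/
theorem inPairs_add_thruPairs_le (hgp : GenPos P) (hK : Convex ℝ K) (k : ℕ) :
    (inPairs P K k).card + (thruPairs P K k).card ≤ (P.filter (fun z => z ∉ K)).card ∧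
    (k + 1 ≤ (P.filter (fun z => z ∈ K)).card → P.card ≤ (P.filter (fun z => z ∈ K)).card + k + 1 →
      (inPairs P K k).card + (thruPairs P K k).card = (P.filter (fun z => z ∉ K)).card) := by
  set O := P.filter (fun z => z ∉ K) with hO
  -- the three kinds of edges starting at `q` towards `K`
  set R1 : ℝ × ℝ → Finset (ℝ × ℝ) := fun q => P.filter (fun y => y ∈ K ∧ upCount P q y = k) with hR1
  set R2 : ℝ × ℝ → Finset (ℝ × ℝ) := fun q => P.filter (fun y => y ∉ K ∧ y ≠ q ∧ upCount P q y = k ∧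
    ∃ c : ℝ, 0 < c ∧ c < 1 ∧ q + c • (y - q) ∈ K) with hR2
  set R3 : ℝ × ℝ → Finset (ℝ × ℝ) := fun q => O.filter (fun y => y ≠ q ∧ upCount P q y = k ∧
    ∃ c : ℝ, 1 < c ∧ q + c • (y - q) ∈ K) with hR3
  set R : ℝ × ℝ → Finset (ℝ × ℝ) := fun q =>
    P.filter (fun y => y ≠ q ∧ upCount P q y = k ∧ fwd K q y) with hR
  set B : ℝ × ℝ → Finset (ℝ × ℝ) := fun q =>
    P.filter (fun x => x ≠ q ∧ upCount P x q = k ∧ bwd K q x) with hB
  have hin : (inPairs P K k).card = ∑ q ∈ O, (R1 q).card := by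
    unfold inPairs
    rw [card_filter_product]
  have hthru : (thruPairs P K k).card = ∑ q ∈ O, (R2 q).card := by
    unfold thruPairs
    rw [card_filter_product]
  -- decomposition of `R q`
  have hdecomp : ∀ q ∈ O, (R q).card = (R1 q).card + (R2 q).card + (R3 q).card := by
    intro q hq
    have hqK : q ∉ K := (Finset.mem_filter.mp hq).2
    have h12 : Disjoint (R1 q) (R2 q) := by
      rw [Finset.disjoint_filter]
      rintro y _ ⟨h1, _⟩ ⟨h2, _⟩
      exact h2 h1
    have h123 : Disjoint (R1 q ∪ R2 q) (R3 q) := by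
      rw [Finset.disjoint_left]
      intro y hy hy3
      obtain ⟨hyO, _, _, c₂, hc₂, hm₂⟩ := Finset.mem_filter.mp hy3
      have hyK : y ∉ K := (Finset.mem_filter.mp hyO).2
      rcases Finset.mem_union.mp hy with h | h
      · exact hyK (Finset.mem_filter.mp h).2.1
      · obtain ⟨_, _, _, _, c₁, _, hc₁, hm₁⟩ := Finset.mem_filter.mp h
        apply hyK
        have := mem_of_between hK hm₁ hm₂ hc₁ hc₂
        simpa using this
    rw [← Finset.card_union_of_disjoint h12, ← Finset.card_union_of_disjoint h123]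
    congr 1
    ext y
    simp only [hR, hR1, hR2, hR3, hO, Finset.mem_union, Finset.mem_filter]
    constructor
    · rintro ⟨hy, hyq, hup, c, hc, hm⟩
      by_cases hyK : y ∈ K
      · left; left; exact ⟨hy, hyK, hup⟩
      · rcases lt_trichotomy c 1 with h | h | h
        · left; right; exact ⟨hy, hyK, hyq, hup, c, hc, h, hm⟩
        · exfalso; apply hyK; rw [h] at hm; simpa using hm
        · right; exact ⟨⟨hy, hyK⟩, hyq, hup, c, h, hm⟩
    · rintro ((⟨hy, hyK, hup⟩ | ⟨hy, hyK, hyq, hup, c, hc, _, hm⟩) | ⟨⟨hy, hyK⟩, hyq, hup, c, hc, hm⟩)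
      · exact ⟨hy, fun h => hqK (h ▸ hyK), hup, 1, one_pos, by simpa using hyK⟩
      · exact ⟨hy, hyq, hup, c, hc, hm⟩
      · exact ⟨hy, hyq, hup, c, by linarith, hm⟩
  -- the edges ending at `q` are the edges of the third kind
  have hBO : ∀ q ∈ O, B q = O.bipartiteAbove
      (fun q x => x ≠ q ∧ upCount P x q = k ∧ bwd K q x) q := by
    intro q hq
    have hqK : q ∉ K := (Finset.mem_filter.mp hq).2
    ext x
    simp only [hB, hO, Finset.mem_bipartiteAbove, Finset.mem_filter]
    constructor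
    · rintro ⟨hx, hxq, hup, c, hc, hm⟩
      refine ⟨⟨hx, ?_⟩, hxq, hup, c, hc, hm⟩
      intro hxK
      apply hqK
      have h1 : q + (1 : ℝ) • (x - q) ∈ K := by simpa using hxK
      have := mem_of_between hK hm h1 hc one_pos
      simpa using this
    · rintro ⟨⟨hx, _⟩, hxq, hup, hb⟩
      exact ⟨hx, hxq, hup, hb⟩
  have hR3O : ∀ x ∈ O, R3 x = O.bipartiteBelow
      (fun q x => x ≠ q ∧ upCount P x q = k ∧ bwd K q x) x := by
    intro x _
    ext q
    simp only [hR3, Finset.mem_bipartiteBelow, Finset.mem_filter]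
    constructor
    · rintro ⟨hq, hqx, hup, c, hc, hm⟩
      refine ⟨hq, Ne.symm hqx, hup, 1 - c, by linarith, ?_⟩
      convert hm using 1
      apply Prod.ext
      · simp only [Prod.fst_add, Prod.smul_fst, Prod.fst_sub, smul_eq_mul]; ring
      · simp only [Prod.snd_add, Prod.smul_snd, Prod.snd_sub, smul_eq_mul]; ring
    · rintro ⟨hq, hxq, hup, c, hc, hm⟩
      refine ⟨hq, Ne.symm hxq, hup, 1 - c, by linarith, ?_⟩
      convert hm using 1
      apply Prod.ext
      · simp only [Prod.fst_add, Prod.smul_fst, Prod.fst_sub, smul_eq_mul]; ring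
      · simp only [Prod.snd_add, Prod.smul_snd, Prod.snd_sub, smul_eq_mul]; ring
  have hswap : ∑ q ∈ O, (B q).card = ∑ x ∈ O, (R3 x).card := by
    have e1 : ∑ q ∈ O, (B q).card = ∑ q ∈ O, (O.bipartiteAbove
        (fun q x => x ≠ q ∧ upCount P x q = k ∧ bwd K q x) q).card :=
      Finset.sum_congr rfl (fun q hq => by rw [hBO q hq])
    have e2 : ∑ x ∈ O, (R3 x).card = ∑ x ∈ O, (O.bipartiteBelow
        (fun q x => x ≠ q ∧ upCount P x q = k ∧ bwd K q x) x).card :=
      Finset.sum_congr rfl (fun x hx => by rw [hR3O x hx])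
    rw [e1, e2]
    exact Finset.sum_card_bipartiteAbove_eq_sum_card_bipartiteBelow _
  have hsumR : ∑ q ∈ O, (R q).card
      = ∑ q ∈ O, (R1 q).card + ∑ q ∈ O, (R2 q).card + ∑ q ∈ O, (R3 q).card := by
    rw [Finset.sum_congr rfl hdecomp, Finset.sum_add_distrib, Finset.sum_add_distrib]
  rw [hin, hthru]
  constructor
  · have hle : ∑ q ∈ O, (R q).card ≤ ∑ q ∈ O, ((B q).card + 1) := by
      apply Finset.sum_le_sum
      intro q hq
      obtain ⟨hqP, hqK⟩ := Finset.mem_filter.mp hq
      exact (local_count hgp hK hqP hqK k).1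
    rw [Finset.sum_add_distrib, Finset.sum_const, smul_eq_mul, mul_one, hswap, hsumR] at hle
    omega
  · intro ha1 ha2
    have heq : ∑ q ∈ O, (R q).card = ∑ q ∈ O, ((B q).card + 1) := by
      apply Finset.sum_congr rfl
      intro q hq
      obtain ⟨hqP, hqK⟩ := Finset.mem_filter.mp hq
      exact (local_count hgp hK hqP hqK k).2 ha1 ha2
    rw [Finset.sum_add_distrib, Finset.sum_const, smul_eq_mul, mul_one, hswap, hsumR] at heq
    omega

end Vale.Agent.P065
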