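import Mathlib

/-!
Definition of `k`-sets of a planar point set (P065, Q2).
-/

namespace Vale.Agent.P065

/-- `S` is a `k`-set of `P`: a `k`-element subset of `P` that is strictly separated from
`P \ S` by a line `a x + b y = c`. -/
def IsKSet (P : Finset (ℝ × ℝ)) (k : ℕ) (S : Finset (ℝ × ℝ)) : Prop :=
  S ⊆ P ∧ S.card = k ∧ ∃ a b c : ℝ, (a ≠ 0 ∨ b ≠ 0) ∧
    (∀ p ∈ S, a * p.1 + b * p.2 < c) ∧ (∀ p ∈ P \ S, c < a * p.1 + b * p.2)

open Classical in
/-- The set of all `k`-sets of `P`; its cardinality is the number `e_k(P)` of `k`-sets. -/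
noncomputable def kSets (P : Finset (ℝ × ℝ)) (k : ℕ) : Finset (Finset (ℝ × ℝ)) :=
  P.powerset.filter (fun S => IsKSet P k S)

end Vale.Agent.P065
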