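import Mathlib
import Vale.Agent.P065.Cup

/-!
Assembly: from the statement-level definitions to the chain machinery.
-/

namespace Vale.Agent.P065

open Finset

lemma collinear_of_det3_eq_zero {p q r : ℝ × ℝ} (hpq : p ≠ q) (h : det3 p q r = 0) :
    Collinear ℝ ({p, q, r} : Set (ℝ × ℝ)) := by
  rw [collinear_iff_of_mem (p₀ := p) (by simp)]
  refine ⟨q - p, ?_⟩
  intro x hx
  simp only [Set.mem_insert_iff, Set.mem_singleton_iff] at hx
  unfold det3 at h
  rcases hx with rfl | rfl | rfl
  · exact ⟨0, by simp⟩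
  · exact ⟨1, by simp⟩
  · by_cases h1 : q.1 - p.1 = 0
    · have h2 : q.2 - p.2 ≠ 0 := by
        intro h2
        apply hpq
        apply Prod.ext <;> linarith
      refine ⟨(x.2 - p.2) / (q.2 - p.2), ?_⟩
      rw [h1] at h
      have h3 : x.1 - p.1 = 0 := by
        have : (q.2 - p.2) * (x.1 - p.1) = 0 := by linarith
        rcases mul_eq_zero.mp this with h' | h'
        · exact absurd h' h2
        · exact h'
      apply Prod.ext
      · simp only [vadd_eq_add, Prod.fst_add, Prod.smul_fst, Prod.fst_sub, smul_eq_mul]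
        rw [h1]; linarith
      · simp only [vadd_eq_add, Prod.snd_add, Prod.smul_snd, Prod.snd_sub, smul_eq_mul]
        field_simp
        ring
    · refine ⟨(x.1 - p.1) / (q.1 - p.1), ?_⟩
      apply Prod.ext
      · simp only [vadd_eq_add, Prod.fst_add, Prod.smul_fst, Prod.fst_sub, smul_eq_mul]
        field_simp
        ring
      · simp only [vadd_eq_add, Prod.snd_add, Prod.smul_snd, Prod.snd_sub, smul_eq_mul]
        field_simp
        linarith

lemma NoThreeCollinear.genPos {P : Finset (ℝ × ℝ)} (h : NoThreeCollinear P) : GenPos P := by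
  intro p hp q hq r hr hpq hpr hqr hdet
  exact h p hp q hq r hr hpq hpr hqr (collinear_of_det3_eq_zero hpq hdet)

/-- a generic shear makes the abscissae distinct -/
lemma exists_shear (P : Finset (ℝ × ℝ)) : ∃ t : ℝ, Set.InjOn (shX t) P := by
  classical
  obtain ⟨t, ht⟩ := Infinite.exists_notMem_finset
    ((P ×ˢ P).image (fun e => - (e.1.1 - e.2.1) / (e.1.2 - e.2.2)))
  refine ⟨t, ?_⟩
  intro p hp q hq hpq
  by_contra hne
  unfold shX at hpq
  by_cases h2 : p.2 - q.2 = 0
  · apply hne
    have h2' : p.2 = q.2 := by linarith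
    rw [h2'] at hpq
    apply Prod.ext
    · linarith
    · exact h2'
  · apply ht
    refine Finset.mem_image.mpr ⟨(p, q), Finset.mem_product.mpr ⟨hp, hq⟩, ?_⟩
    show - (p.1 - q.1) / (p.2 - q.2) = t
    field_simp
    linarith

lemma upCount_swap (P : Finset (ℝ × ℝ)) (p q : ℝ × ℝ) :
    upCount P q p = (P.filter (fun r => det3 p q r < 0)).card := by
  unfold upCount
  congr 1
  apply Finset.filter_congr
  intro r _
  rw [det3_swap q p r]
  constructor <;> intro h <;> linarith

/-- the halving pairs inject into the rightward edges with `(n-2)/2` points above -/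
lemma card_halvingPairs_le {t : ℝ} {P : Finset (ℝ × ℝ)} (hX : Set.InjOn (shX t) P) :
    (halvingPairs P).card ≤ (kEdges t P ((P.card - 2) / 2)).card := by
  classical
  apply Finset.card_le_card_of_forall_subsingleton (fun s e => s = {e.1, e.2})
  · intro s hs
    obtain ⟨_, p, q, rfl, hp, hq, hpq, hL, hR⟩ := Finset.mem_filter.mp hs
    have hne : shX t p ≠ shX t q := fun h => hpq (hX hp hq h)
    rcases lt_or_gt_of_ne hne with h | h
    · refine ⟨(p, q), mem_kEdges.mpr ⟨hp, hq, h, ?_⟩, rfl⟩
      show upCount P p q = _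
      unfold upCount
      omega
    · refine ⟨(q, p), mem_kEdges.mpr ⟨hq, hp, h, ?_⟩, Finset.pair_comm _ _⟩
      show upCount P q p = _
      rw [upCount_swap]
      omega
  · intro e _ s₁ h₁ s₂ h₂
    rw [h₁.2, h₂.2]

/-- **Main bound.** If every subset of `P` in convex position has at most `g` points then
`2 h(P) ≤ |P| (g - 1)`. -/
theorem two_mul_card_halvingPairs_le (P : Finset (ℝ × ℝ)) (hP : NoThreeCollinear P) (g : ℕ)
    (hg : ∀ S : Finset (ℝ × ℝ), S ⊆ P →
      ConvexIndependent ℝ (Subtype.val : ↥(S : Set (ℝ × ℝ)) → ℝ × ℝ) → S.card ≤ g) :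
    2 * (halvingPairs P).card ≤ P.card * (g - 1) := by
  classical
  obtain ⟨t, hX⟩ := exists_shear P
  have hgp := hP.genPos
  have h1 := card_halvingPairs_le hX
  have h2 := card_kEdges_le (k := (P.card - 2) / 2) hX hgp g (by
    intro S hSP hcup
    exact hg S hSP (hcup.convexIndependent (hX.mono (Finset.coe_subset.mpr hSP))))
  by_cases hempty : (halvingPairs P).card = 0
  · rw [hempty]; simp
  · obtain ⟨s, hs⟩ := Finset.card_pos.mp (Nat.pos_of_ne_zero hempty)
    obtain ⟨_, p, q, rfl, hp, hq, hpq, hL, hR⟩ := Finset.mem_filter.mp hs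
    set n := P.card with hn
    set c := (P.filter (fun r => 0 < det3 p q r)).card with hc
    have hk : (n - 2) / 2 = c := by omega
    rw [hk] at h1 h2
    have hn2 : n - (c + 1) = c + 1 := by omega
    rw [hn2] at h2
    calc 2 * (halvingPairs P).card ≤ 2 * ((c + 1) * (g - 1)) := by
          apply Nat.mul_le_mul_left; exact le_trans h1 h2
      _ = n * (g - 1) := by
          rw [← hL]; ring

end Vale.Agent.P065
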