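import Mathlib
import Vale.Agent.P065.Main
import Vale.Agent.P065.KSetDefs

/-!
`k`-sets versus the largest subset in convex position.
-/

namespace Vale.Agent.P065

open Finset

/-- ordered pairs of distinct points with exactly `j` points strictly to the left -/
noncomputable def dEdges (P : Finset (ℝ × ℝ)) (j : ℕ) : Finset ((ℝ × ℝ) × (ℝ × ℝ)) :=
  (P ×ˢ P).filter (fun e => e.1 ≠ e.2 ∧ upCount P e.1 e.2 = j)

lemma mem_dEdges {P : Finset (ℝ × ℝ)} {j : ℕ} {e : (ℝ × ℝ) × (ℝ × ℝ)} :
    e ∈ dEdges P j ↔ e.1 ∈ P ∧ e.2 ∈ P ∧ e.1 ≠ e.2 ∧ upCount P e.1 e.2 = j := by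
  unfold dEdges
  simp only [mem_filter, mem_product]
  tauto

/-- every `k`-set is cut off by a directed edge with `k - 1` points on its left -/
lemma kSet_edge {P : Finset (ℝ × ℝ)} (hgp : GenPos P) {k : ℕ} (hk : 1 ≤ k) (hkn : k < P.card)
    {S : Finset (ℝ × ℝ)} (hS : IsKSet P k S) :
    ∃ e ∈ dEdges P (k - 1), S = insert e.1 (P.filter (fun r => 0 < det3 e.1 e.2 r)) := by
  classical
  obtain ⟨hSP, hcard, a, b, c, hab, hlt, hgt⟩ := hS
  set X : ℝ × ℝ → ℝ := fun r => a * r.1 + b * r.2 with hXdef
  set Y : ℝ × ℝ → ℝ := fun r => - b * r.1 + a * r.2 with hYdef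
  have hN : 0 < a ^ 2 + b ^ 2 := by
    rcases hab with h | h
    · have := sq_pos_of_ne_zero h; positivity
    · have := sq_pos_of_ne_zero h; positivity
  have hdet : ∀ p q r : ℝ × ℝ, (X q - X p) * (Y r - Y p) - (Y q - Y p) * (X r - X p)
      = (a ^ 2 + b ^ 2) * det3 p q r := by
    intro p q r
    simp only [hXdef, hYdef, det3]
    ring
  have hSne : S.Nonempty := by
    rw [← Finset.card_pos]; omega
  have hCne : (P \ S).Nonempty := by
    rw [← Finset.card_pos, Finset.card_sdiff_of_subset hSP]; omega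
  obtain ⟨⟨p, q⟩, hpq, hmax⟩ := Finset.exists_max_image (S ×ˢ (P \ S))
    (fun e => (Y e.2 - Y e.1) / (X e.2 - X e.1)) (hSne.product hCne)
  obtain ⟨hp, hq⟩ := Finset.mem_product.mp hpq
  simp only at hp hq hmax
  have hqP : q ∈ P := (Finset.mem_sdiff.mp hq).1
  have hqS : q ∉ S := (Finset.mem_sdiff.mp hq).2
  have hpP : p ∈ P := hSP hp
  have hpq_ne : p ≠ q := fun h => hqS (h ▸ hp)
  have hD : 0 < X q - X p := by
    have h1 := hlt p hp
    have h2 := hgt q hq
    simp only [hXdef]; linarith
  -- points of S are on the left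
  have hleft : ∀ p' ∈ S, p' ≠ p → 0 < det3 p q p' := by
    intro p' hp' hne
    have hD' : 0 < X q - X p' := by
      have h1 := hlt p' hp'
      have h2 := hgt q hq
      simp only [hXdef]; linarith
    have h := hmax (p', q) (Finset.mem_product.mpr ⟨hp', hq⟩)
    simp only at h
    rw [div_le_div_iff₀ hD' hD] at h
    have h3 : 0 ≤ (a ^ 2 + b ^ 2) * det3 p q p' := by
      rw [← hdet]; nlinarith
    have h4 : 0 ≤ det3 p q p' := by
      by_contra hcon
      have : (a ^ 2 + b ^ 2) * det3 p q p' < 0 := mul_neg_of_pos_of_neg hN (not_le.mp hcon)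
      linarith
    have h5 : det3 p q p' ≠ 0 :=
      hgp p hpP q hqP p' (hSP hp') hpq_ne (Ne.symm hne) (fun h => hqS (h ▸ hp'))
    exact lt_of_le_of_ne h4 (Ne.symm h5)
  have hright : ∀ q' ∈ P \ S, ¬ 0 < det3 p q q' := by
    intro q' hq'
    have hD' : 0 < X q' - X p := by
      have h1 := hlt p hp
      have h2 := hgt q' hq'
      simp only [hXdef]; linarith
    have h := hmax (p, q') (Finset.mem_product.mpr ⟨hp, hq'⟩)
    simp only at h
    rw [div_le_div_iff₀ hD' hD] at h
    have h3 : (a ^ 2 + b ^ 2) * det3 p q q' ≤ 0 := by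
      rw [← hdet]; nlinarith
    intro hcon
    have : 0 < (a ^ 2 + b ^ 2) * det3 p q q' := mul_pos hN hcon
    linarith
  have hfilter : P.filter (fun r => 0 < det3 p q r) = S.erase p := by
    ext r
    simp only [Finset.mem_filter, Finset.mem_erase]
    constructor
    · rintro ⟨hr, hpos⟩
      refine ⟨?_, ?_⟩
      · rintro rfl
        rw [det3_self_left] at hpos
        exact lt_irrefl _ hpos
      · by_contra hrS
        exact hright r (Finset.mem_sdiff.mpr ⟨hr, hrS⟩) hpos
    · rintro ⟨hne, hr⟩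
      exact ⟨hSP hr, hleft r hr hne⟩
  refine ⟨(p, q), mem_dEdges.mpr ⟨hpP, hqP, hpq_ne, ?_⟩, ?_⟩
  · show upCount P p q = k - 1
    unfold upCount
    rw [hfilter, Finset.card_erase_of_mem hp, hcard]
  · show S = insert p (P.filter (fun r => 0 < det3 p q r))
    rw [hfilter, Finset.insert_erase hp]

lemma card_kSets_le_dEdges {P : Finset (ℝ × ℝ)} (hgp : GenPos P) {k : ℕ} (hk : 1 ≤ k)
    (hkn : k < P.card) : (kSets P k).card ≤ (dEdges P (k - 1)).card := by
  classical
  apply Finset.card_le_card_of_forall_subsingleton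
    (fun S e => S = insert e.1 (P.filter (fun r => 0 < det3 e.1 e.2 r)))
  · intro S hS
    exact kSet_edge hgp hk hkn (Finset.mem_filter.mp hS).2
  · intro e _ S₁ h₁ S₂ h₂
    rw [h₁.2, h₂.2]

/-- in general position the two open sides of a spanned line contain `n - 2` points -/
lemma up_add_down {P : Finset (ℝ × ℝ)} (hgp : GenPos P) {p q : ℝ × ℝ} (hp : p ∈ P) (hq : q ∈ P)
    (hpq : p ≠ q) : upCount P p q + upCount P q p + 2 = P.card := by
  classical
  rw [upCount_swap P p q]
  unfold upCount
  have h1 : P.filter (fun r => 0 < det3 p q r) ∪ P.filter (fun r => det3 p q r < 0)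
      = (P.erase p).erase q := by
    ext r
    simp only [Finset.mem_union, Finset.mem_filter, Finset.mem_erase]
    constructor
    · rintro (⟨hr, h⟩ | ⟨hr, h⟩)
      · refine ⟨?_, ?_, hr⟩
        · rintro rfl
          have : det3 p r r = 0 := by unfold det3; ring
          rw [this] at h; exact lt_irrefl _ h
        · rintro rfl
          rw [det3_self_left] at h; exact lt_irrefl _ h
      · refine ⟨?_, ?_, hr⟩
        · rintro rfl
          have : det3 p r r = 0 := by unfold det3; ring
          rw [this] at h; exact lt_irrefl _ h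
        · rintro rfl
          rw [det3_self_left] at h; exact lt_irrefl _ h
    · rintro ⟨hrq, hrp, hr⟩
      have := hgp p hp q hq r hr hpq (Ne.symm hrp) (Ne.symm hrq)
      rcases lt_or_gt_of_ne this with h | h
      · right; exact ⟨hr, h⟩
      · left; exact ⟨hr, h⟩
  have h2 : Disjoint (P.filter (fun r => 0 < det3 p q r)) (P.filter (fun r => det3 p q r < 0)) := by
    rw [Finset.disjoint_filter]
    intro r _ h1 h2
    linarith
  rw [← Finset.card_union_of_disjoint h2, h1,
    Finset.card_erase_of_mem (Finset.mem_erase.mpr ⟨Ne.symm hpq, hq⟩), Finset.card_erase_of_mem hp]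
  have : 2 ≤ P.card := by
    have : ({p, q} : Finset (ℝ × ℝ)).card ≤ P.card := by
      apply Finset.card_le_card
      intro x hx
      rcases Finset.mem_insert.mp hx with h | h
      · rw [h]; exact hp
      · rw [Finset.mem_singleton.mp h]; exact hq
    rwa [Finset.card_pair hpq] at this
  omega

/-- reflection in the horizontal axis -/
def refl (p : ℝ × ℝ) : ℝ × ℝ := (p.1, - p.2)

lemma refl_refl (p : ℝ × ℝ) : refl (refl p) = p := by
  unfold refl; simp

lemma refl_injective : Function.Injective refl := by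
  intro p q h
  have := congrArg refl h
  rwa [refl_refl, refl_refl] at this

lemma det3_refl (p q r : ℝ × ℝ) : det3 (refl p) (refl q) (refl r) = - det3 p q r := by
  unfold det3 refl; ring

lemma shX_refl (t : ℝ) (p : ℝ × ℝ) : shX (-t) (refl p) = shX t p := by
  unfold shX refl; ring

lemma refl_isLinearMap : IsLinearMap ℝ refl := by
  constructor
  · intro a b
    unfold refl
    apply Prod.ext
    · simp
    · simp only [Prod.snd_add]; ring
  · intro c a
    unfold refl
    apply Prod.ext
    · simp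
    · simp

lemma convexIndependent_image_refl {S : Finset (ℝ × ℝ)}
    (h : ConvexIndependent ℝ (Subtype.val : ↥(S : Set (ℝ × ℝ)) → ℝ × ℝ)) :
    ConvexIndependent ℝ (Subtype.val : ↥((S.image refl : Finset (ℝ × ℝ)) : Set (ℝ × ℝ)) → ℝ × ℝ) := by
  rw [convexIndependent_set_iff_notMem_convexHull_sdiff] at h ⊢
  intro x hx hmem
  rw [Finset.coe_image] at hx hmem
  obtain ⟨y, hy, rfl⟩ := hx
  have h1 : (refl '' (S : Set (ℝ × ℝ))) \ {refl y} = refl '' ((S : Set (ℝ × ℝ)) \ {y}) := by
    rw [Set.image_sdiff refl_injective, Set.image_singleton]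
  rw [h1, ← refl_isLinearMap.image_convexHull] at hmem
  obtain ⟨z, hz, hzy⟩ := hmem
  rw [refl_injective hzy] at hz
  exact h y hy hz

lemma upCount_refl (P : Finset (ℝ × ℝ)) (p q : ℝ × ℝ) :
    upCount (P.image refl) (refl p) (refl q) = upCount P q p := by
  classical
  rw [upCount_swap P p q]
  unfold upCount
  rw [Finset.filter_image, Finset.card_image_of_injective _ refl_injective]
  congr 1
  apply Finset.filter_congr
  intro r _
  rw [det3_refl]
  constructor <;> intro h <;> linarith

lemma GenPos.refl {P : Finset (ℝ × ℝ)} (hgp : GenPos P) : GenPos (P.image refl) := by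
  classical
  intro p hp q hq r hr hpq hpr hqr
  obtain ⟨p', hp', rfl⟩ := Finset.mem_image.mp hp
  obtain ⟨q', hq', rfl⟩ := Finset.mem_image.mp hq
  obtain ⟨r', hr', rfl⟩ := Finset.mem_image.mp hr
  rw [det3_refl]
  have := hgp p' hp' q' hq' r' hr' (fun h => hpq (by rw [h])) (fun h => hpr (by rw [h]))
    (fun h => hqr (by rw [h]))
  exact neg_ne_zero.mpr this

/-- the number of ordered pairs with exactly `j` points on the left is at most `2 (j+1) (g-1)` -/
theorem card_dEdges_le (P : Finset (ℝ × ℝ)) (hgp : GenPos P) (g : ℕ)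
    (hg : ∀ S : Finset (ℝ × ℝ), S ⊆ P →
      ConvexIndependent ℝ (Subtype.val : ↥(S : Set (ℝ × ℝ)) → ℝ × ℝ) → S.card ≤ g) (j : ℕ) :
    (dEdges P j).card ≤ 2 * ((j + 1) * (g - 1)) := by
  classical
  obtain ⟨t, hX⟩ := exists_shear P
  -- leftward edges: reversed, they are rightward edges with `n - 2 - j` points above
  have hA : ((dEdges P j).filter (fun e => shX t e.2 < shX t e.1)).card
      ≤ (kEdges t P (P.card - 2 - j)).card := by
    apply Finset.card_le_card_of_injOn (fun e => (e.2, e.1))
    · intro e he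
      obtain ⟨he1, he2⟩ := Finset.mem_filter.mp (Finset.mem_coe.mp he)
      obtain ⟨a1, a2, a3, a4⟩ := mem_dEdges.mp he1
      refine Finset.mem_coe.mpr (mem_kEdges.mpr ⟨a2, a1, he2, ?_⟩)
      have := up_add_down hgp a1 a2 a3
      show upCount P e.2 e.1 = _
      omega
    · intro e₁ _ e₂ _ h
      simp only [Prod.mk.injEq] at h
      exact Prod.ext h.2 h.1
  -- rightward edges: reflected, they are rightward edges with `n - 2 - j` points above
  have hX' : Set.InjOn (shX (-t)) (P.image refl : Finset (ℝ × ℝ)) := by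
    intro p hp q hq hpq
    obtain ⟨p', hp', rfl⟩ := Finset.mem_image.mp (Finset.mem_coe.mp hp)
    obtain ⟨q', hq', rfl⟩ := Finset.mem_image.mp (Finset.mem_coe.mp hq)
    rw [shX_refl, shX_refl] at hpq
    rw [hX hp' hq' hpq]
  have hB : ((dEdges P j).filter (fun e => shX t e.1 < shX t e.2)).card
      ≤ (kEdges (-t) (P.image refl) (P.card - 2 - j)).card := by
    apply Finset.card_le_card_of_injOn (fun e => (refl e.1, refl e.2))
    · intro e he
      obtain ⟨he1, he2⟩ := Finset.mem_filter.mp (Finset.mem_coe.mp he)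
      obtain ⟨a1, a2, a3, a4⟩ := mem_dEdges.mp he1
      refine Finset.mem_coe.mpr (mem_kEdges.mpr ⟨Finset.mem_image_of_mem _ a1,
        Finset.mem_image_of_mem _ a2, ?_, ?_⟩)
      · show shX (-t) (refl e.1) < shX (-t) (refl e.2)
        rw [shX_refl, shX_refl]; exact he2
      · show upCount (P.image refl) (refl e.1) (refl e.2) = _
        rw [upCount_refl]
        have := up_add_down hgp a1 a2 a3
        omega
    · intro e₁ _ e₂ _ h
      simp only [Prod.mk.injEq] at h
      exact Prod.ext (refl_injective h.1) (refl_injective h.2)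
  have hsplit : (dEdges P j).card = ((dEdges P j).filter (fun e => shX t e.1 < shX t e.2)).card
      + ((dEdges P j).filter (fun e => shX t e.2 < shX t e.1)).card := by
    rw [← Finset.card_union_of_disjoint]
    · congr 1
      ext e
      simp only [Finset.mem_union, Finset.mem_filter]
      constructor
      · intro he
        obtain ⟨a1, a2, a3, a4⟩ := mem_dEdges.mp he
        have hne : shX t e.1 ≠ shX t e.2 := fun h => a3 (hX a1 a2 h)
        rcases lt_or_gt_of_ne hne with h | h
        · left; exact ⟨he, h⟩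
        · right; exact ⟨he, h⟩
      · rintro (h | h) <;> exact h.1
    · rw [Finset.disjoint_filter]
      intro e _ h1 h2
      linarith
  by_cases hempty : (dEdges P j).card = 0
  · rw [hempty]; exact Nat.zero_le _
  obtain ⟨e₀, he₀⟩ := Finset.card_pos.mp (Nat.pos_of_ne_zero hempty)
  obtain ⟨a1, a2, a3, a4⟩ := mem_dEdges.mp he₀
  have hn := up_add_down hgp a1 a2 a3
  have hcount : P.card - (P.card - 2 - j + 1) = j + 1 := by omega
  have h1 := card_kEdges_le (k := P.card - 2 - j) hX hgp g (by
    intro S hSP hcup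
    exact hg S hSP (hcup.convexIndependent (hX.mono (Finset.coe_subset.mpr hSP))))
  have h2 := card_kEdges_le (k := P.card - 2 - j) hX' hgp.refl g (by
    intro S hSP hcup
    have hci := hcup.convexIndependent (hX'.mono (Finset.coe_subset.mpr hSP))
    have hci' := convexIndependent_image_refl hci
    have hsub : S.image refl ⊆ P := by
      intro x hx
      obtain ⟨y, hy, rfl⟩ := Finset.mem_image.mp hx
      obtain ⟨z, hz, rfl⟩ := Finset.mem_image.mp (hSP hy)
      rw [refl_refl]; exact hz
    have := hg _ hsub hci'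
    rwa [Finset.card_image_of_injective _ refl_injective] at this)
  rw [Finset.card_image_of_injective _ refl_injective] at h2
  rw [hcount] at h1 h2
  omega

/-- **`k`-set bound.** -/
theorem card_kSets_le (P : Finset (ℝ × ℝ)) (hP : NoThreeCollinear P) (g : ℕ)
    (hg : ∀ S : Finset (ℝ × ℝ), S ⊆ P →
      ConvexIndependent ℝ (Subtype.val : ↥(S : Set (ℝ × ℝ)) → ℝ × ℝ) → S.card ≤ g)
    (k : ℕ) (hk : 1 ≤ k) (hkn : k < P.card) :
    (kSets P k).card ≤ 2 * k * (g - 1) := by
  have h1 := card_kSets_le_dEdges hP.genPos hk hkn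
  have h2 := card_dEdges_le P hP.genPos g hg (k - 1)
  have h3 : k - 1 + 1 = k := by omega
  rw [h3] at h2
  calc (kSets P k).card ≤ _ := h1
    _ ≤ _ := h2
    _ = 2 * k * (g - 1) := by ring

end Vale.Agent.P065

namespace Vale.Agent.P065

open Finset

lemma IsKSet.compl {P : Finset (ℝ × ℝ)} {k : ℕ} {S : Finset (ℝ × ℝ)} (hS : IsKSet P k S) :
    IsKSet P (P.card - k) (P \ S) := by
  classical
  obtain ⟨hSP, hcard, a, b, c, hab, hlt, hgt⟩ := hS
  refine ⟨Finset.sdiff_subset, by rw [Finset.card_sdiff_of_subset hSP, hcard], -a, -b, -c, ?_, ?_, ?_⟩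
  · rcases hab with h | h
    · left; exact neg_ne_zero.mpr h
    · right; exact neg_ne_zero.mpr h
  · intro p hp
    have := hgt p hp
    linarith
  · intro p hp
    rw [Finset.sdiff_sdiff_eq_self hSP] at hp
    have := hlt p hp
    linarith

lemma card_kSets_compl_le (P : Finset (ℝ × ℝ)) (k : ℕ) :
    (kSets P k).card ≤ (kSets P (P.card - k)).card := by
  classical
  apply Finset.card_le_card_of_injOn (fun S => P \ S)
  · intro S hS
    obtain ⟨_, h2⟩ := Finset.mem_filter.mp (Finset.mem_coe.mp hS)
    exact Finset.mem_coe.mpr (Finset.mem_filter.mpr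
      ⟨Finset.mem_powerset.mpr Finset.sdiff_subset, h2.compl⟩)
  · intro S₁ h₁ S₂ h₂ h
    have g₁ := (Finset.mem_filter.mp (Finset.mem_coe.mp h₁)).2.1
    have g₂ := (Finset.mem_filter.mp (Finset.mem_coe.mp h₂)).2.1
    simp only at h
    rw [← Finset.sdiff_sdiff_eq_self g₁, h, Finset.sdiff_sdiff_eq_self g₂]

/-- **`k`-set bound, symmetric form.** -/
theorem card_kSets_le_min (P : Finset (ℝ × ℝ)) (hP : NoThreeCollinear P) (g : ℕ)
    (hg : ∀ S : Finset (ℝ × ℝ), S ⊆ P →
      ConvexIndependent ℝ (Subtype.val : ↥(S : Set (ℝ × ℝ)) → ℝ × ℝ) → S.card ≤ g)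
    (k : ℕ) (hk : 1 ≤ k) (hkn : k < P.card) :
    (kSets P k).card ≤ 2 * min k (P.card - k) * (g - 1) := by
  rcases le_total k (P.card - k) with h | h
  · rw [min_eq_left h]
    exact card_kSets_le P hP g hg k hk hkn
  · rw [min_eq_right h]
    exact le_trans (card_kSets_compl_le P k)
      (card_kSets_le P hP g hg (P.card - k) (by omega) (by omega))

end Vale.Agent.P065
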