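import Mathlib
import Vale.Agent.P065.Global
import Vale.Agent.P065.KSet
import Vale.Agent.P065.ConvexDefs

/-!
From ordered pairs to unordered pairs; the convex Lovasz lemma for halving lines.
-/

namespace Vale.Agent.P065

open Finset

lemma finset_pair_eq {α : Type*} [DecidableEq α] {x y z w : α}
    (h : ({x, y} : Finset α) = {z, w}) : (x = z ∧ y = w) ∨ (x = w ∧ y = z) := by
  have h' : (({x, y} : Finset α) : Set α) = (({z, w} : Finset α) : Set α) := by rw [h]
  rw [Finset.coe_pair, Finset.coe_pair] at h'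
  exact Set.pair_eq_pair_iff.mp h'

/-- a symmetric set of ordered pairs of distinct elements is twice as large as the set of the
underlying unordered pairs -/
lemma two_mul_card_unordered {α : Type*} [DecidableEq α] {U : Finset (Finset α)}
    {T : Finset (α × α)}
    (h1 : ∀ e ∈ T, e.1 ≠ e.2 ∧ ({e.1, e.2} : Finset α) ∈ U ∧ (e.2, e.1) ∈ T)
    (h2 : ∀ s ∈ U, ∃ e ∈ T, s = {e.1, e.2}) : 2 * U.card = T.card := by
  have hmaps : (T : Set (α × α)).MapsTo (fun e => ({e.1, e.2} : Finset α)) U := by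
    intro e he
    exact (h1 e he).2.1
  rw [Finset.card_eq_sum_card_fiberwise hmaps]
  have hfib : ∀ s ∈ U, (T.filter (fun e => ({e.1, e.2} : Finset α) = s)).card = 2 := by
    intro s hs
    obtain ⟨e₀, he₀, rfl⟩ := h2 s hs
    have hne := (h1 e₀ he₀).1
    have : T.filter (fun e => ({e.1, e.2} : Finset α) = {e₀.1, e₀.2}) = {e₀, (e₀.2, e₀.1)} := by
      ext e
      simp only [Finset.mem_filter, Finset.mem_insert, Finset.mem_singleton]
      constructor
      · rintro ⟨_, heq⟩
        rcases finset_pair_eq heq with ⟨a, b⟩ | ⟨a, b⟩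
        · left; exact Prod.ext a b
        · right; exact Prod.ext a b
      · rintro (rfl | rfl)
        · exact ⟨he₀, rfl⟩
        · exact ⟨(h1 e₀ he₀).2.2, Finset.pair_comm _ _⟩
    rw [this, Finset.card_pair]
    intro h
    exact hne (congrArg Prod.fst h)
  rw [Finset.sum_congr rfl hfib, Finset.sum_const, smul_eq_mul, mul_comm]

variable {P : Finset (ℝ × ℝ)}

lemma IsHalvingPair.symm {p q : ℝ × ℝ} (h : IsHalvingPair P p q) : IsHalvingPair P q p := by
  obtain ⟨hp, hq, hpq, hL, hR⟩ := h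
  refine ⟨hq, hp, Ne.symm hpq, ?_, ?_⟩
  · have : P.filter (fun r => 0 < det3 q p r) = P.filter (fun r => det3 p q r < 0) := by
      apply Finset.filter_congr
      intro r _
      rw [det3_swap q p r]
      constructor <;> intro h <;> linarith
    rw [this]; exact hR
  · have : P.filter (fun r => det3 q p r < 0) = P.filter (fun r => 0 < det3 p q r) := by
      apply Finset.filter_congr
      intro r _
      rw [det3_swap q p r]
      constructor <;> intro h <;> linarith
    rw [this]; exact hL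

lemma mem_halvingPairs_pair {p q : ℝ × ℝ} :
    ({p, q} : Finset (ℝ × ℝ)) ∈ halvingPairs P ↔ IsHalvingPair P p q := by
  classical
  unfold halvingPairs
  rw [Finset.mem_filter]
  constructor
  · rintro ⟨_, p', q', heq, h⟩
    rcases finset_pair_eq heq with ⟨rfl, rfl⟩ | ⟨rfl, rfl⟩
    · exact h
    · exact h.symm
  · intro h
    refine ⟨?_, p, q, rfl, h⟩
    rw [Finset.mem_powersetCard]
    refine ⟨?_, Finset.card_pair h.2.2.1⟩
    intro x hx
    rcases Finset.mem_insert.mp hx with rfl | hx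
    · exact h.1
    · rw [Finset.mem_singleton.mp hx]; exact h.2.1

lemma exists_pair_of_mem_halvingPairs {s : Finset (ℝ × ℝ)} (hs : s ∈ halvingPairs P) :
    ∃ p q, s = {p, q} ∧ IsHalvingPair P p q := by
  classical
  exact (Finset.mem_filter.mp hs).2

lemma isHalvingPair_iff (hgp : GenPos P) {k : ℕ} (hn : P.card = 2 * k + 2) {p q : ℝ × ℝ} :
    IsHalvingPair P p q ↔ p ∈ P ∧ q ∈ P ∧ p ≠ q ∧ upCount P p q = k := by
  constructor
  · rintro ⟨hp, hq, hpq, hL, _⟩
    refine ⟨hp, hq, hpq, ?_⟩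
    unfold upCount
    omega
  · rintro ⟨hp, hq, hpq, hup⟩
    have h := up_add_down hgp hp hq hpq
    rw [upCount_swap P p q] at h
    refine ⟨hp, hq, hpq, ?_, ?_⟩
    · unfold upCount at hup; omega
    · omega

lemma upCount_symm_of_halving (hgp : GenPos P) {k : ℕ} (hn : P.card = 2 * k + 2) {p q : ℝ × ℝ}
    (hp : p ∈ P) (hq : q ∈ P) (hpq : p ≠ q) (h : upCount P p q = k) : upCount P q p = k := by
  have := up_add_down hgp hp hq hpq
  omega

/-- the number of ordered halving pairs is twice the number of halving lines -/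
lemma two_mul_card_halvingPairs (hgp : GenPos P) {k : ℕ} (hn : P.card = 2 * k + 2) :
    2 * (halvingPairs P).card = (dEdges P k).card := by
  classical
  apply two_mul_card_unordered
  · intro e he
    obtain ⟨a1, a2, a3, a4⟩ := mem_dEdges.mp he
    refine ⟨a3, mem_halvingPairs_pair.mpr ((isHalvingPair_iff hgp hn).mpr ⟨a1, a2, a3, a4⟩),
      mem_dEdges.mpr ⟨a2, a1, Ne.symm a3, upCount_symm_of_halving hgp hn a1 a2 a3 a4⟩⟩
  · intro s hs
    obtain ⟨p, q, rfl, h⟩ := exists_pair_of_mem_halvingPairs hs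
    obtain ⟨a1, a2, a3, a4⟩ := (isHalvingPair_iff hgp hn).mp h
    exact ⟨(p, q), mem_dEdges.mpr ⟨a1, a2, a3, a4⟩, rfl⟩

lemma halvingPairs_eq_empty (h : ¬ ∃ k, P.card = 2 * k + 2) : halvingPairs P = ∅ := by
  classical
  rw [Finset.eq_empty_iff_forall_notMem]
  intro s hs
  obtain ⟨p, q, rfl, _, _, _, hL, _⟩ := exists_pair_of_mem_halvingPairs hs
  exact h ⟨_, hL.symm⟩

variable {K : Set (ℝ × ℝ)}

lemma mem_inPairs {k : ℕ} {e : (ℝ × ℝ) × (ℝ × ℝ)} : e ∈ inPairs P K k ↔
    e.1 ∈ P ∧ e.1 ∉ K ∧ e.2 ∈ P ∧ e.2 ∈ K ∧ upCount P e.1 e.2 = k := by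
  classical
  unfold inPairs
  simp only [Finset.mem_filter, Finset.mem_product]
  tauto

lemma mem_thruPairs {k : ℕ} {e : (ℝ × ℝ) × (ℝ × ℝ)} : e ∈ thruPairs P K k ↔
    e.1 ∈ P ∧ e.1 ∉ K ∧ e.2 ∈ P ∧ e.2 ∉ K ∧ e.2 ≠ e.1 ∧ upCount P e.1 e.2 = k ∧
      ∃ c : ℝ, 0 < c ∧ c < 1 ∧ e.1 + c • (e.2 - e.1) ∈ K := by
  classical
  unfold thruPairs
  simp only [Finset.mem_filter, Finset.mem_product]
  tauto

lemma card_leavingPairs (hgp : GenPos P) {k : ℕ} (hn : P.card = 2 * k + 2) :
    (leavingPairs P K).card = (inPairs P K k).card := by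
  classical
  symm
  apply Finset.card_bij (fun e _ => ({e.1, e.2} : Finset (ℝ × ℝ)))
  · intro e he
    obtain ⟨a1, a2, a3, a4, a5⟩ := mem_inPairs.mp he
    have hne : e.1 ≠ e.2 := fun h => a2 (h ▸ a4)
    unfold leavingPairs
    refine Finset.mem_filter.mpr ⟨mem_halvingPairs_pair.mpr
      ((isHalvingPair_iff hgp hn).mpr ⟨a1, a3, hne, a5⟩), e.2, e.1, Finset.pair_comm _ _, a4, a2⟩
  · intro e₁ h₁ e₂ h₂ heq
    obtain ⟨a1, a2, a3, a4, a5⟩ := mem_inPairs.mp h₁
    obtain ⟨b1, b2, b3, b4, b5⟩ := mem_inPairs.mp h₂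
    rcases finset_pair_eq heq with ⟨x, y⟩ | ⟨x, y⟩
    · exact Prod.ext x y
    · exact absurd (x ▸ b4) a2
  · intro s hs
    unfold leavingPairs at hs
    obtain ⟨hs1, p, q, rfl, hp, hq⟩ := Finset.mem_filter.mp hs
    obtain ⟨a1, a2, a3, a4⟩ := (isHalvingPair_iff hgp hn).mp (mem_halvingPairs_pair.mp hs1).symm
    exact ⟨(q, p), mem_inPairs.mpr ⟨a1, hq, a2, hp, a4⟩, Finset.pair_comm _ _⟩

lemma two_mul_card_throughPairs (hgp : GenPos P) {k : ℕ} (hn : P.card = 2 * k + 2) :
    2 * (throughPairs P K).card = (thruPairs P K k).card := by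
  classical
  apply two_mul_card_unordered
  · intro e he
    obtain ⟨a1, a2, a3, a4, a5, a6, c, hc0, hc1, hm⟩ := mem_thruPairs.mp he
    refine ⟨Ne.symm a5, ?_, ?_⟩
    · unfold throughPairs
      refine Finset.mem_filter.mpr ⟨mem_halvingPairs_pair.mpr
        ((isHalvingPair_iff hgp hn).mpr ⟨a1, a3, Ne.symm a5, a6⟩), e.1, e.2, rfl, a2, a4,
        e.1 + c • (e.2 - e.1), ?_, hm⟩
      rw [segment_eq_image']
      exact ⟨c, ⟨hc0.le, hc1.le⟩, rfl⟩
    · refine mem_thruPairs.mpr ⟨a3, a4, a1, a2, Ne.symm a5,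
        upCount_symm_of_halving hgp hn a1 a3 (Ne.symm a5) a6, 1 - c, by linarith, by linarith, ?_⟩
      convert hm using 1
      apply Prod.ext
      · simp only [Prod.fst_add, Prod.smul_fst, Prod.fst_sub, smul_eq_mul]; ring
      · simp only [Prod.snd_add, Prod.smul_snd, Prod.snd_sub, smul_eq_mul]; ring
  · intro s hs
    unfold throughPairs at hs
    obtain ⟨hs1, p, q, rfl, hp, hq, z, hz1, hz2⟩ := Finset.mem_filter.mp hs
    obtain ⟨a1, a2, a3, a4⟩ := (isHalvingPair_iff hgp hn).mp (mem_halvingPairs_pair.mp hs1)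
    rw [segment_eq_image'] at hz1
    obtain ⟨c, ⟨hc0, hc1⟩, rfl⟩ := hz1
    refine ⟨(p, q), mem_thruPairs.mpr ⟨a1, hp, a2, hq, Ne.symm a3, a4, c, ?_, ?_, hz2⟩, rfl⟩
    · refine lt_of_le_of_ne hc0 ?_
      rintro rfl
      apply hp
      simpa using hz2
    · refine lt_of_le_of_ne hc1 ?_
      rintro rfl
      apply hq
      simpa using hz2

open Classical in
/-- **Convex Lovasz lemma for halving lines.** -/
theorem convex_lovasz (hP : NoThreeCollinear P) (hK : Convex ℝ K) :
    (leavingPairs P K).card + 2 * (throughPairs P K).card ≤ (P.filter (fun z => z ∉ K)).card ∧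
    (Even P.card → P.card ≤ 2 * (P.filter (fun z => z ∈ K)).card →
      (leavingPairs P K).card + 2 * (throughPairs P K).card = (P.filter (fun z => z ∉ K)).card) := by
  classical
  have hgp := hP.genPos
  by_cases hn : ∃ k, P.card = 2 * k + 2
  · obtain ⟨k, hk⟩ := hn
    rw [card_leavingPairs hgp hk, two_mul_card_throughPairs hgp hk]
    obtain ⟨h1, h2⟩ := inPairs_add_thruPairs_le hgp hK k
    refine ⟨h1, ?_⟩
    intro _ ha
    exact h2 (by omega) (by omega)
  · have hempty := halvingPairs_eq_empty hn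
    have e1 : leavingPairs P K = ∅ := by unfold leavingPairs; rw [hempty]; simp
    have e2 : throughPairs P K = ∅ := by unfold throughPairs; rw [hempty]; simp
    rw [e1, e2]
    simp only [Finset.card_empty, mul_zero, add_zero, zero_le, true_and]
    intro heven _
    obtain ⟨m, hm⟩ := heven
    have h0 : P.card = 0 := by
      by_contra hne
      exact hn ⟨m - 1, by omega⟩
    rw [Finset.card_eq_zero] at h0
    rw [h0]; simp

end Vale.Agent.P065
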